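import Vale.Agent.P296.Spec

/-! Module V: the bundles `E_m` are ample. -/

namespace Vale.Agent.P296

open Matrix Complex

theorem sw_co' {i i' : Bool} {t t' : ℂ} (h : pt i t = pt i' t') (e : Bool) :
    sw i i' t * sw i' e t' = sw i e t := by
  rcases pt_eq_iff.1 h with ⟨rfl, rfl⟩ | ⟨rfl, k⟩
  · simp [sw]
  · cases i <;> cases e <;> simp [sw, k]

theorem chi_co' {a b : Ch} {z z' : ℂ × ℂ} (h : ch a z = ch b z') (e : Ch) :
    chi a e z = chi a b z * chi b e z' := by
  rw [ch, ch, Prod.mk.injEq] at h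
  rw [chi, chi, chi, ← sw_co' h.1 e.1, ← sw_co' h.2 e.2]; ring

theorem pt_of_sw {i i' : Bool} {t t' μ : ℂ} (h : ∀ e, sw i' e t' = μ * sw i e t) :
    pt i t = pt i' t' := by
  have h1 := h true
  have h2 := h false
  rw [pt_eq_iff]
  cases i <;> cases i' <;> simp [sw] at h1 h2 ⊢
  · rw [h1, ← h2, one_mul]
  · rw [h2, mul_comm, ← h1]
  · rw [h1, mul_comm, ← h2]
  · rw [h2, ← h1, one_mul]

theorem ch_of_chi {a b : Ch} {z z' : ℂ × ℂ} {μ : ℂ} (h : ∀ e, chi b e z' = μ * chi a e z) :
    ch a z = ch b z' := by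
  rw [ch, ch, Prod.mk.injEq]
  constructor
  · refine pt_of_sw (μ := μ * sw a.2 b.2 z.2) fun e => ?_
    have := h (e, b.2)
    simp only [chi] at this
    rw [show sw b.2 b.2 z'.2 = 1 by simp [sw], mul_one] at this
    rw [this]; ring
  · refine pt_of_sw (μ := μ * sw a.1 b.1 z.1) fun e => ?_
    have := h (b.1, e)
    simp only [chi] at this
    rw [show sw b.1 b.1 z'.1 = 1 by simp [sw], one_mul] at this
    rw [this]; ring

theorem chi_self (a : Ch) (z : ℂ × ℂ) : chi a a z = 1 := by simp [chi, sw]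

theorem line_deriv {E : Type*} [NormedAddCommGroup E] [NormedSpace ℂ E] {F : E → ℂ}
    (hF : Differentiable ℂ F) (x w : E) :
    HasDerivAt (fun t : ℂ => F (x + t • w)) (fderiv ℂ F x w) 0 := by
  have h1 : HasDerivAt (fun t : ℂ => x + t • w) w 0 := by
    simpa using ((hasDerivAt_id (0 : ℂ)).smul_const w).const_add x
  have h2 : HasFDerivAt F (fderiv ℂ F x) (x + (0 : ℂ) • w) := by
    simpa using (hF x).hasFDerivAt
  exact h2.comp_hasDerivAt (0 : ℂ) h1

theorem lin_of_hom {f : V2 → ℂ} (hf : Differentiable ℂ f) (h : ∀ (c : ℂ) v, f (c • v) = c * f v)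
    (v w : V2) : f (v + w) = f v + f w := by
  have e : ∀ u, f u = fderiv ℂ f 0 u := fun u => by
    have h1 := line_deriv hf 0 u
    simp only [zero_add, h] at h1
    have h2 : HasDerivAt (fun t : ℂ => t * f u) (f u) 0 := by
      simpa using (hasDerivAt_id (0 : ℂ)).mul_const (f u)
    exact h2.unique h1
  rw [e (v + w), e v, e w, map_add]

theorem GSec.add {Φ : Ch → (ℂ × ℂ) × V2 → ℂ} (h : GSec 1 Φ) (a : Ch) (z : ℂ × ℂ) (v w : V2)
    (c : ℂ) : Φ a (z, v + c • w) = Φ a (z, v) + c * Φ a (z, w) := by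
  have d : Differentiable ℂ fun u : V2 => Φ a (z, u) :=
    (h.hol a).comp ((differentiable_const z).prodMk differentiable_id)
  have := lin_of_hom d (fun c u => by simpa using h.hom a z u c) v (c • w)
  rw [this, h.hom, pow_one]

theorem ample_of {ι : Type} [Fintype ι] (E : Bundle 2) (k : ℕ)
    (S : ι → Ch → (ℂ × ℂ) × V2 → ℂ) (hk : 0 < k) (h1 : ∀ n, IsSec E k (S n))
    (h2 : ∀ a z v, v ≠ 0 → ∃ n, S n a (z, v) ≠ 0)
    (h3 : ∀ a b z z' v v' (c : ℂ), v ≠ 0 → v' ≠ 0 → (∀ n, S n b (z', v') = c * S n a (z, v)) →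
      ch a z = ch b z' ∧ ∃ d : ℂ, v' = d • (v ᵥ* E.g a b z))
    (h4 : ∀ a z v w, v ≠ 0 → (∀ n, fderiv ℂ (S n a) (z, v) w = 0) → w = 0) : Ample E := by
  let e := Fintype.equivFin ι
  refine ⟨k, Fintype.card ι, fun n => S (e.symm n), hk, fun n => h1 _, fun a z v hv => ?_,
    fun a b z z' v v' c hv hv' H => h3 a b z z' v v' c hv hv' fun n => ?_,
    fun a z v w hv H => h4 a z v w hv fun n => ?_⟩
  · obtain ⟨n, hn⟩ := h2 a z v hv
    exact ⟨e n, by simpa using hn⟩
  · simpa using H (e n)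
  · simpa using H (e n)

theorem amp (h : GGStmt) : AmpStmt := by
  intro m
  obtain ⟨Sg, hSg, bS⟩ := h (6 * m) (.inr ⟨3 * m, by ring⟩)
  obtain ⟨La, hLa, bL⟩ := h 1 (.inl rfl)
  have inj : ∀ a z (v w : V2) (c : ℂ), (∀ n, La n a (z, v) = c * La n a (z, w)) → v = c • w := by
    intro a z v w c H
    by_contra hne
    obtain ⟨n, hn⟩ := bL a z (v + (-c) • w) (fun h0 => hne (by
      rw [neg_smul, ← sub_eq_add_neg, sub_eq_zero] at h0; exact h0))
    apply hn
    rw [(hLa n).add, H n]; ring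
  let P : Fin 3 × Ch → Fin 3 × Ch → Ch → (ℂ × ℂ) × V2 → ℂ := fun n1 n2 a x =>
    Sg n1 a (pw m x.1, x.2) * La n2 a (pw m x.1, x.2)
  have dq : Differentiable ℂ fun x : (ℂ × ℂ) × V2 => (pw m x.1, x.2) := by
    unfold pw; fun_prop
  have dP : ∀ n1 n2 a, Differentiable ℂ (P n1 n2 a) := fun n1 n2 a =>
    (((hSg n1).hol a).comp dq).mul (((hLa n2).hol a).comp dq)
  have hP : ∀ n1 n2 a z v (c : ℂ), P n1 n2 a (z, c • v) = c ^ (6 * m + 1) * P n1 n2 a (z, v) := by
    intro n1 n2 a z v c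
    simp only [P, (hSg n1).hom, (hLa n2).hom]; ring
  have bP : ∀ a z v, v ≠ 0 → ∃ n1 n2, P n1 n2 a (z, v) ≠ 0 := by
    intro a z v hv
    obtain ⟨n1, h1⟩ := bS a (pw m z) v hv
    obtain ⟨n2, h2⟩ := bL a (pw m z) v hv
    exact ⟨n1, n2, mul_ne_zero h1 h2⟩
  have dc : ∀ a e : Ch, Differentiable ℂ fun x : (ℂ × ℂ) × V2 => chi a e x.1 := by
    intro a e
    unfold chi sw; split_ifs <;> fun_prop
  let S : (Fin 3 × Ch) × (Fin 3 × Ch) × Ch → Ch → (ℂ × ℂ) × V2 → ℂ := fun n a x =>
    P n.1 n.2.1 a x * chi a n.2.2 x.1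
  have sec : ∀ n, IsSec (EE m) (6 * m + 1) (S n) := by
    intro n
    refine ⟨fun a => (dP _ _ a).mul (dc a _), fun a z v c => ?_, fun a b z z' v hz => ?_⟩
    · simp only [S, hP]; ring
    · have e : v ᵥ* (EE m).g a b z = chi a b z • (v ᵥ* gG a b (pw m z)) := by
        simp [EE, vecMul_smul]
      simp only [S, e, hP]
      simp only [P]
      rw [(hSg n.1).glue a b _ _ v (ch_pw m hz), (hLa n.2.1).glue a b _ _ v (ch_pw m hz),
        chi_co' hz n.2.2, chi_pw]
      ring
  refine ample_of (EE m) (6 * m + 1) S (by omega) sec (fun a z v hv => ?_)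
    (fun a b z z' v v' c hv hv' H => ?_) (fun a z v w hv H => ?_)
  · obtain ⟨n1, n2, hn⟩ := bP a z v hv
    exact ⟨(n1, n2, a), by simpa [S, chi_self] using hn⟩
  · have hc : c ≠ 0 := by
      rintro rfl
      obtain ⟨n1, n2, hn⟩ := bP b z' v' hv'
      have := H (n1, n2, b)
      simp only [S, chi_self, mul_one, zero_mul] at this
      exact hn this
    obtain ⟨n1, n2, hn⟩ := bP a z v hv
    have hB : P n1 n2 b (z', v') ≠ 0 := by
      intro h0
      have := H (n1, n2, a)
      simp only [S, chi_self, mul_one, h0, zero_mul] at this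
      exact mul_ne_zero hc hn this.symm
    have hz : ch a z = ch b z' := by
      refine ch_of_chi (μ := c * P n1 n2 a (z, v) / P n1 n2 b (z', v')) fun e => ?_
      have := H (n1, n2, e)
      simp only [S] at this
      field_simp
      linear_combination this
    refine ⟨hz, ?_⟩
    obtain ⟨n3, h3⟩ := bS b (pw m z') v' hv'
    refine ⟨c * Sg n3 b (pw m z', v ᵥ* (EE m).g a b z) / Sg n3 b (pw m z', v'),
      inj b (pw m z') _ _ _ fun n => ?_⟩
    have := H (n3, n, b)
    rw [← (sec (n3, n, b)).glue a b z z' v hz] at this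
    simp only [S, P, chi_self, mul_one] at this
    field_simp
    linear_combination this
  · have L : ∀ n, HasDerivAt (fun t : ℂ => S n a ((z, v) + t • w)) 0 0 := fun n => by
      have := line_deriv ((sec n).hol a) (z, v) w
      rwa [H n] at this
    have L0 : ∀ n1 n2, HasDerivAt (fun t : ℂ => P n1 n2 a ((z, v) + t • w)) 0 0 := by
      intro n1 n2
      simpa only [S, chi_self, mul_one] using L (n1, n2, a)
    obtain ⟨n1, n2, hn⟩ := bP a z v hv
    have key : ∀ (e : Ch) (p q : ℂ), (∀ t : ℂ, chi a e ((z, v) + t • w).1 = p + t * q) →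
        q = 0 := by
      intro e p q hpq
      have h1 := L (n1, n2, e)
      simp only [S, hpq] at h1
      have h2 : HasDerivAt (fun t : ℂ => p + t * q) q 0 := by
        simpa using ((hasDerivAt_id (0 : ℂ)).mul_const q).const_add p
      have h3 := ((L0 n1 n2).mul h2).unique h1
      simpa [hn] using h3
    have w1 : w.1.1 = 0 := key (!a.1, a.2) z.1 _ fun t => by simp [chi, sw]
    have w2 : w.1.2 = 0 := key (a.1, !a.2) z.2 _ fun t => by simp [chi, sw]
    obtain ⟨w0, u⟩ := w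
    obtain rfl : w0 = 0 := Prod.ext w1 w2
    have e : ∀ t : ℂ, ((z, v) : (ℂ × ℂ) × V2) + t • ((0 : ℂ × ℂ), u) = (z, v + t • u) := by
      intro t; simp
    simp only [e] at L0
    obtain ⟨n3, h3⟩ := bS a (pw m z) v hv
    have d : Differentiable ℂ fun y : V2 => Sg n3 a (pw m z, y) :=
      ((hSg n3).hol a).comp ((differentiable_const _).prodMk differentiable_id)
    have hσ := line_deriv d v u
    generalize fderiv ℂ (fun y : V2 => Sg n3 a (pw m z, y)) v u = σ at hσ
    have hu : u = (-σ / Sg n3 a (pw m z, v)) • v := by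
      refine inj a (pw m z) _ _ _ fun n => ?_
      have h1 := L0 n3 n
      simp only [P, (hLa n).add] at h1
      have h2 : HasDerivAt (fun t : ℂ => La n a (pw m z, v) + t * La n a (pw m z, u))
          (La n a (pw m z, u)) 0 := by
        simpa using ((hasDerivAt_id (0 : ℂ)).mul_const (La n a (pw m z, u))).const_add
          (La n a (pw m z, v))
      have h4 := (hσ.mul h2).unique h1
      simp only [zero_smul, add_zero, zero_mul] at h4
      field_simp
      linear_combination h4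
    generalize -σ / Sg n3 a (pw m z, v) = θ at hu
    subst hu
    have h1 := L0 n1 n2
    have e2 : ∀ t : ℂ, v + t • θ • v = (1 + t * θ) • v := by
      intro t; rw [add_smul, one_smul, mul_smul]
    simp only [e2, hP] at h1
    have h2 : HasDerivAt (fun t : ℂ => 1 + t * θ) θ 0 := by
      simpa using ((hasDerivAt_id (0 : ℂ)).mul_const θ).const_add 1
    have h4 := ((h2.fun_pow (6 * m + 1)).mul_const (P n1 n2 a (z, v))).unique h1
    have h5 : ((6 * m + 1 : ℕ) : ℂ) ≠ 0 := Nat.cast_ne_zero.2 (by omega)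
    have h6 : θ = 0 := by
      simp only [zero_mul, add_zero, one_pow, mul_one, mul_eq_zero, hn, h5, or_false,
        false_or] at h4
      exact h4
    simp [h6]

end Vale.Agent.P296
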