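import Vale.Agent.P296.GG3

/-! Assembly of the modules. -/

namespace Vale.Agent.P296

open Matrix Complex GG

theorem exists_chart (s : ℂ) : ∃ b s', pt false s = pt b s' ∧ ‖s'‖ ≤ 1 := by
  by_cases h : ‖s‖ ≤ 1
  · exact ⟨false, s, rfl, h⟩
  · have h0 : s ≠ 0 := by rintro rfl; simp at h
    exact ⟨true, s⁻¹, pt_eq_iff.2 (.inr ⟨rfl, mul_inv_cancel₀ h0⟩), by
      rw [norm_inv]; exact inv_le_one_of_one_le₀ (not_le.1 h).le⟩

theorem sw_le (b : Bool) (s : ℂ) : ‖sw false b s‖ ≤ max 1 ‖s‖ := by cases b <;> simp [sw]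

theorem growth (hM : MetStmt) {m : ℕ} {h : Ch → ℂ × ℂ → Matrix (Fin 2) (Fin 2) ℂ}
    (H : IsGriffiths (EE m) h) (e : Ch → ℂ × ℂ → V2) (he : ∀ b, Continuous (e b)) (k l : ℕ)
    (hg : ∀ b z z', ch ff z = ch b z' →
      e ff z ᵥ* gG ff b (pw m z) = (sw false b.1 z.1 ^ k * sw false b.2 z.2 ^ l) • e b z') :
    ∃ C, ∀ s t, nv (h ff (s, t)) (e ff (s, t)) ≤ C * max 1 ‖s‖ ^ (k + 1) * max 1 ‖t‖ ^ (l + 1) := by
  have hc : ∀ b, Continuous fun z => nv (h b z) (e b z) := fun b =>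
    (hM.2 (h b) (H.smooth b) (H.pos b) (H.curv_pos b)).1.comp (continuous_id.prodMk (he b))
  choose C hC using fun b => ((isCompact_closedBall (0 : ℂ) 1).prod
    (isCompact_closedBall (0 : ℂ) 1)).exists_bound_of_continuousOn (hc b).continuousOn
  refine ⟨∑ b, |C b|, fun s t => ?_⟩
  obtain ⟨i, s', h1, h2⟩ := exists_chart s
  obtain ⟨j, t', h3, h4⟩ := exists_chart t
  have hz : ch ff (s, t) = ch (i, j) (s', t') := Prod.ext h1 h3
  have hi := ((EE m).cocycle ff (i, j) ff _ _ _ hz rfl).trans ((EE m).refl _ _)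
  rw [← (hM.1 _ (H.pos ff (s, t))).2.2 _ _ _ hi, ← H.glue _ _ _ _ hz]
  have e1 : e ff (s, t) ᵥ* (EE m).g ff (i, j) (s, t) =
      (sw false i s ^ (k + 1) * sw false j t ^ (l + 1)) • e (i, j) (s', t') := by
    simp only [EE, vecMul_smul, hg _ _ _ hz, smul_smul, chi]
    congr 1; ring
  have b1 : nv (h (i, j) (s', t')) (e (i, j) (s', t')) ≤ ∑ b, |C b| :=
    ((le_abs_self _).trans (hC (i, j) (s', t') ⟨by simpa, by simpa⟩)).trans
      ((le_abs_self _).trans
        (Finset.single_le_sum (f := fun b => |C b|) (fun _ _ => abs_nonneg _) (Finset.mem_univ _)))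
  rw [e1, (hM.1 _ (H.pos _ _)).2.1, norm_mul, norm_pow, norm_pow, mul_comm, mul_assoc]
  have := sw_le i s
  have := sw_le j t
  have : 0 ≤ nv (h (i, j) (s', t')) (e (i, j) (s', t')) := Real.sqrt_nonneg _
  gcongr

theorem e1_ne (a : Ch) (z : ℂ × ℂ) : (![TC a z, FC a z] : V2) ≠ 0 := fun h => by
  have h0 : TC a z = 0 := congrFun h 0
  have h1 : FC a z = 0 := congrFun h 1
  simpa [h0, h1] using bez a z

theorem e1_diff (m : ℕ) {f g : ℂ → ℂ} (hf : Differentiable ℂ f) (hg : Differentiable ℂ g) :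
    Differentiable ℂ fun s => (![TC ff (pw m (f s, g s)), FC ff (pw m (f s, g s))] : V2) := by
  refine differentiable_pi.2 fun i => ?_
  fin_cases i
  · change Differentiable ℂ fun s => T0 (f s ^ m) (g s ^ m) 1
    unfold T0; fun_prop
  · change Differentiable ℂ fun s => Fh (f s ^ m) 1 (g s ^ m) 1
    unfold Fh; fun_prop

theorem nrm (hM : MetStmt) {m : ℕ} {h : Ch → ℂ × ℂ → Matrix (Fin 2) (Fin 2) ℂ}
    (H : IsGriffiths (EE m) h) :
    Nrm m (fun s t => nv (h ff (s, t)) ![TC ff (pw m (s, t)), FC ff (pw m (s, t))])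
      (fun s t => nv (h ff (s, t)) ![1, 0]) fun s t => nv (h ff (s, t)) ![0, 1] := by
  obtain ⟨hc, hl⟩ := hM.2 (h ff) (H.smooth ff) (H.pos ff) (H.curv_pos ff)
  have pc : Continuous (pw m) := by unfold pw; fun_prop
  have ec : ∀ b, Continuous fun z => (![TC b (pw m z), FC b (pw m z)] : V2) := fun b =>
    continuous_pi fun i => by fin_cases i; exacts [(TC_cont b).comp pc, (FC_cont b).comp pc]
  have l1 : ∀ (t : ℂ) (v : ℂ → V2), Differentiable ℂ v → (∀ s, v s ≠ 0) →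
      LS fun s => nv (h ff (s, t)) (v s) := fun t v h1 h2 => by
    simpa using hl (0, t) (1, 0) v (by simp) h1 h2
  have l2 : ∀ (s : ℂ) (v : ℂ → V2), Differentiable ℂ v → (∀ t, v t ≠ 0) →
      LS fun t => nv (h ff (s, t)) (v t) := fun s v h1 h2 => by
    simpa using hl (s, 0) (0, 1) v (by simp) h1 h2
  have tri : ∀ (z : ℂ × ℂ) (x y : ℂ),
      nv (h ff z) ![x, y] ≤ ‖x‖ * nv (h ff z) ![1, 0] + ‖y‖ * nv (h ff z) ![0, 1] ∧
      ‖x‖ * nv (h ff z) ![1, 0] ≤ nv (h ff z) ![x, y] + ‖y‖ * nv (h ff z) ![0, 1] ∧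
      ‖y‖ * nv (h ff z) ![0, 1] ≤ nv (h ff z) ![x, y] + ‖x‖ * nv (h ff z) ![1, 0] := by
    intro z x y
    obtain ⟨a1, a2, -⟩ := hM.1 _ (H.pos ff z)
    have k1 := a1 (x • ![1, 0]) (y • ![0, 1])
    have k2 := a1 ![x, y] ((-y) • ![0, 1])
    have k3 := a1 ![x, y] ((-x) • ![1, 0])
    have e1 : (x • ![1, 0] + y • ![0, 1] : V2) = ![x, y] := by ext i; fin_cases i <;> simp
    have e2 : (![x, y] + (-y) • ![0, 1] : V2) = x • ![1, 0] := by ext i; fin_cases i <;> simp
    have e3 : (![x, y] + (-x) • ![1, 0] : V2) = y • ![0, 1] := by ext i; fin_cases i <;> simp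
    rw [e1, a2, a2] at k1
    rw [e2, a2, a2, norm_neg] at k2
    rw [e3, a2, a2, norm_neg] at k3
    exact ⟨k1, k2, k3⟩
  refine ⟨hc.comp (continuous_id.prodMk (ec ff)), hc.comp (continuous_id.prodMk continuous_const),
    fun t => l1 t _ (e1_diff m differentiable_id (differentiable_const t)) fun _ => e1_ne _ _,
    fun s => l2 s _ (e1_diff m (differentiable_const s) differentiable_id) fun _ => e1_ne _ _,
    fun t => l1 t _ (differentiable_const _) (by simp),
    fun s => l2 s _ (differentiable_const _) (by simp),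
    fun t => l1 t _ (differentiable_const _) (by simp), ?_, ?_,
    fun s t => (tri _ _ _).1, fun s t => (tri _ _ _).2.1, fun s t => (tri _ _ _).2.2⟩
  · simpa using growth hM H (fun b z => ![TC b (pw m z), FC b (pw m z)]) ec 0 (6 * m)
      fun b z z' hz => by
        rw [e1_gG (ch_pw m hz), pow_zero, one_mul, pw, sw_pw, ← pow_mul, mul_comm m]
  · simpa using growth hM H (fun _ _ => ![1, 0]) (fun _ => continuous_const) (6 * m) 0
      fun b z z' hz => by
        rw [e2_gG, pow_zero, mul_one, pw, sw_pw, ← pow_mul, mul_comm m]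

theorem assemble (hM : MetStmt) (hC : CoreStmt) (hA : AmpStmt) :
    ∃ E : Bundle 2, Ample E ∧ ¬∃ h, IsGriffiths E h := by
  by_contra hn
  choose h H using fun m => not_not.1 fun k => hn ⟨EE m, hA m, k⟩
  exact hC _ _ _ fun m _ => nrm hM (H m)

end Vale.Agent.P296
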