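import Vale.Agent.P296.Core2

/-! Group words and the final contradiction. -/

namespace Vale.Agent.P296

namespace Co

open Filter Topology Metric Matrix

abbrev M2 : Type := Matrix (Fin 2) (Fin 2) ℂ

/-- the graph of `h` is part of the curve -/
def IsGr (h : M2) : Prop := h.det ≠ 0 ∧ ∀ x, ‖T0 x ((h *ᵥ ![x, 1]) 0) ((h *ᵥ ![x, 1]) 1)‖ = 1 ∧
  Fh x 1 ((h *ᵥ ![x, 1]) 0) ((h *ᵥ ![x, 1]) 1) = 0

theorem mv0 (q : M2) (x y : ℂ) : (q *ᵥ ![x, y]) 0 = q 0 0 * x + q 0 1 * y := by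
  simp [mulVec, dotProduct, Fin.sum_univ_two]

theorem mv1 (q : M2) (x y : ℂ) : (q *ᵥ ![x, y]) 1 = q 1 0 * x + q 1 1 * y := by
  simp [mulVec, dotProduct, Fin.sum_univ_two]

theorem mob {q : M2} (hq : q.det ≠ 0) : (∀ᶠ Y in cofinite, (q *ᵥ ![Y, 1]) 1 ≠ 0) ∧
    Tendsto (fun Y => (q *ᵥ ![Y, 1]) 0 / (q *ᵥ ![Y, 1]) 1) cofinite cofinite := by
  rw [det_fin_two] at hq
  simp only [mv0, mv1, mul_one]
  have h1 := lin_ne (a := q 1 0) (b := q 1 1) fun h k => hq (by rw [h, k]; ring)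
  refine ⟨h1, le_cofinite_iff_eventually_ne.2 fun Z => eventually_map.2 ?_⟩
  filter_upwards [h1, lin_ne (a := q 0 0 - Z * q 1 0) (b := q 0 1 - Z * q 1 1) fun h k =>
    hq (by linear_combination q 1 1 * h - q 1 0 * k)] with Y a b e
  rw [div_eq_iff a] at e
  exact b (by linear_combination e)

theorem vec_eq {w : V2} (h : w 1 ≠ 0) : w = w 1 • ![w 0 / w 1, 1] := by
  ext i
  fin_cases i
  · simp [mul_div_cancel₀ _ h]
  · simp

theorem A.mono {M : ℕ → ℝ} {u : ℕ → ℂ → ℂ → ℝ} {Y : ℂ} {a b : ℝ} (h : A M u Y a) (k : a ≤ b) :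
    A M u Y b := fun a' ha => h a' (k.trans_lt ha)

/-- the bound given by a word, outside a finite set -/
def Good (M : ℕ → ℝ) (α : ℕ → ℂ → ℂ → ℝ) (g : M2) : Prop :=
  ∀ᶠ Y in cofinite, A M α Y (‖g *ᵥ ![Y, 1]‖ ^ 6)

theorem gr1 : IsGr 1 := ⟨by simp, fun x => by simp [T0_gr1, Fh_gr1]⟩

theorem gr2 : IsGr !![pp, -ss; pp, ss] := ⟨by
    rw [det_fin_two_of, show pp * ss - -ss * pp = 1 by linear_combination 2 * pp_mul_ss]
    exact one_ne_zero, fun x => by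
  rw [mv0, mv1]
  simpa [sub_eq_add_neg] using And.intro (congrArg norm (T0_gr2 x)) (Fh_gr2 x)⟩

theorem gr3 : IsGr !![pp, pp; -ss, ss] := ⟨by
    rw [det_fin_two_of, show pp * ss - pp * -ss = 1 by linear_combination 2 * pp_mul_ss]
    exact one_ne_zero, fun x => by
  rw [mv0, mv1]
  simpa using And.intro (congrArg norm (T0_gr3 x)) (Fh_gr3 x)⟩

theorem inv2 : (!![pp, -ss; pp, ss] : M2) * !![ss, ss; -pp, pp] = 1 := by
  ext i j
  fin_cases i <;> fin_cases j <;> simp [mul_apply, Fin.sum_univ_two] <;>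
    first | linear_combination 2 * pp_mul_ss | ring

theorem inv3 : (!![pp, pp; -ss, ss] : M2) * !![ss, -pp; ss, pp] = 1 := by
  ext i j
  fin_cases i <;> fin_cases j <;> simp [mul_apply, Fin.sum_univ_two] <;>
    first | linear_combination 2 * pp_mul_ss | ring

/-- the hyperbolic element -/
noncomputable def DD (n : ℕ) : M2 := !![(2 * ss ^ 2) ^ n, 0; 0, (2 * pp ^ 2) ^ n]

theorem DD_succ (n : ℕ) :
    DD n * (1 * !![ss, ss; -pp, pp]) * (1 * !![ss, -pp; ss, pp]) = DD (n + 1) := by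
  ext i j
  fin_cases i <;> fin_cases j <;> simp [DD, mul_apply, Fin.sum_univ_two] <;> ring

theorem DD_norm (n : ℕ) (w : V2) {r : ℝ} (h0 : ‖w 0‖ ≤ r * ‖(2 * pp ^ 2) ^ n‖ ^ 2)
    (h1 : ‖w 1‖ ≤ r) : ‖DD n *ᵥ w‖ ≤ r * ‖(2 * pp ^ 2) ^ n‖ := by
  have r0 := (norm_nonneg _).trans h1
  have e : ‖(2 * ss ^ 2) ^ n‖ * ‖(2 * pp ^ 2) ^ n‖ = 1 := by
    rw [← norm_mul, ← mul_pow, show 2 * ss ^ 2 * (2 * pp ^ 2) = 1 by
      linear_combination (4 * pp * ss + 2) * pp_mul_ss, one_pow, norm_one]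
  rw [pi_norm_le_iff_of_nonneg (by positivity), Fin.forall_fin_two]
  constructor
  · rw [show (DD n *ᵥ w) 0 = (2 * ss ^ 2) ^ n * w 0 by
      simp [DD, mulVec, dotProduct, Fin.sum_univ_two], norm_mul]
    calc _ ≤ ‖(2 * ss ^ 2) ^ n‖ * (r * ‖(2 * pp ^ 2) ^ n‖ ^ 2) := by gcongr
      _ = r * ‖(2 * pp ^ 2) ^ n‖ * (‖(2 * ss ^ 2) ^ n‖ * ‖(2 * pp ^ 2) ^ n‖) := by ring
      _ = _ := by rw [e, mul_one]
  · rw [show (DD n *ᵥ w) 1 = (2 * pp ^ 2) ^ n * w 1 by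
      simp [DD, mulVec, dotProduct, Fin.sum_univ_two], norm_mul, mul_comm]
    gcongr

theorem num : ‖pp‖ ≤ 1 / 2 ∧ ‖ss‖ ≤ 2 ∧ 1 / 4 ≤ ‖2 * pp ^ 2‖ ∧ ‖2 * pp ^ 2‖ ≤ 1 / 2 := by
  have a : (1.72 : ℝ) < √3 := Real.lt_sqrt_of_sq_lt (by norm_num)
  have b : √3 < (1.74 : ℝ) := (Real.sqrt_lt' (by norm_num)).2 (by norm_num)
  have p : ‖pp‖ = (√3 - 1) / 2 := by
    rw [show pp = ((√3 - 1) / 2 : ℝ) by simp [pp, th], Complex.norm_real, Real.norm_of_nonneg (by linarith)]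
  have s : ‖ss‖ = (√3 + 1) / 2 := by
    rw [show ss = ((√3 + 1) / 2 : ℝ) by simp [ss, th], Complex.norm_real, Real.norm_of_nonneg (by linarith)]
  rw [norm_mul, norm_pow, p, s, Complex.norm_ofNat]
  refine ⟨by linarith, by linarith, by nlinarith, by nlinarith⟩

/-- the cubic vanishing at the three special points -/
noncomputable def LL (Y : ℂ) : ℂ := (Y - 0) * (Y - 2 * pp ^ 2) * (Y - -1)

theorem near3 {Y : ℂ} {r : ℝ} (h : ‖LL Y‖ = r) (hr : r < 1 / 512) :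
    ‖Y - 0‖ ≤ 64 * r ∨ ‖Y - 2 * pp ^ 2‖ ≤ 64 * r ∨ ‖Y - -1‖ ≤ 64 * r := by
  obtain ⟨-, -, n3, n4⟩ := num
  rw [LL, norm_mul, norm_mul] at h
  have h1 := norm_sub_le (Y - 0) (Y - 2 * pp ^ 2)
  have h2 := norm_sub_le (Y - -1) (Y - 0)
  have h3 := norm_sub_le (Y - -1 - (Y - 2 * pp ^ 2)) (2 * pp ^ 2)
  have h4 := norm_sub_le (Y - -1) (Y - 2 * pp ^ 2)
  rw [show Y - 0 - (Y - 2 * pp ^ 2) = 2 * pp ^ 2 by ring] at h1
  rw [show Y - -1 - (Y - 0) = 1 by ring, norm_one] at h2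
  rw [show Y - -1 - (Y - 2 * pp ^ 2) - 2 * pp ^ 2 = 1 by ring, norm_one] at h3
  have a0 := norm_nonneg (Y - 0)
  have b0 := norm_nonneg (Y - 2 * pp ^ 2)
  have c0 := norm_nonneg (Y - -1)
  generalize ‖Y - 0‖ = a, ‖Y - 2 * pp ^ 2‖ = b, ‖Y - -1‖ = c at *
  have k : ∀ x y z : ℝ, 0 ≤ x → 1 / 8 ≤ y → 1 / 8 ≤ z → x ≤ 64 * (x * y * z) := fun x y z hx hy hz => by
    have : 1 / 8 * (1 / 8) ≤ y * z := mul_le_mul hy hz (by norm_num) (by linarith)
    nlinarith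
  rcases lt_or_ge a (1 / 8) with ha | ha
  · exact .inl (h ▸ k a b c a0 (by linarith) (by linarith))
  rcases lt_or_ge b (1 / 8) with hb | hb
  · exact .inr (.inl ((k b a c b0 ha (by linarith)).trans_eq (by rw [← h]; ring)))
  rcases lt_or_ge c (1 / 8) with hc | hc
  · exact .inr (.inr ((k c a b c0 ha hb).trans_eq (by rw [← h]; ring)))
  linarith [k a b c a0 hb hc]

theorem gr_LL {m : ℕ} (hm : 1 ≤ m) : Gr (fun t => LL (t ^ m)) (3 * m) := by
  refine ⟨max (max 1 (2 * ‖(0 : ℂ)‖)) (max (max 1 (2 * ‖2 * pp ^ 2‖)) (max 1 (2 * ‖(-1 : ℂ)‖))),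
    fun t h => ?_⟩
  have h1 := gr_half hm _ t (le_of_max_le_left h)
  have h2 := gr_half hm _ t (le_of_max_le_left (le_of_max_le_right h))
  have h3 := gr_half hm _ t (le_of_max_le_right (le_of_max_le_right h))
  show ‖t‖ ^ (3 * m) ≤ 8 * ‖LL (t ^ m)‖
  rw [LL, norm_mul, norm_mul]
  calc ‖t‖ ^ (3 * m) = ‖t‖ ^ m * ‖t‖ ^ m * ‖t‖ ^ m := by ring
    _ ≤ (2 * ‖t ^ m - 0‖) * (2 * ‖t ^ m - 2 * pp ^ 2‖) * (2 * ‖t ^ m - -1‖) := by gcongr
    _ = _ := by ring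

namespace Ctx
variable {α β η : ℕ → ℂ → ℂ → ℝ} {M : ℕ → ℝ} (c : Ctx α β η M)
include c

theorem gr_iff {h : M2} (hh : IsGr h) {w : V2} (h1 : w 1 ≠ 0) (h2 : (h *ᵥ w) 1 ≠ 0) {a : ℝ}
    (a0 : 0 ≤ a) : A M α ((h *ᵥ w) 0 / (h *ᵥ w) 1) (a / ‖(h *ᵥ w) 1‖ ^ 6) ↔
      A M (fun m t s => β m s t) (w 0 / w 1) (a / ‖w 1‖ ^ 6) := by
  obtain ⟨e1, e2⟩ := hh.2 (w 0 / w 1)
  have e : h *ᵥ w = w 1 • h *ᵥ ![w 0 / w 1, 1] := by rw [← mulVec_smul, ← vec_eq h1]
  rw [e] at h2 ⊢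
  simp only [Pi.smul_apply, smul_eq_mul] at h2 ⊢
  generalize (h *ᵥ ![w 0 / w 1, 1]) 0 = y0, (h *ᵥ ![w 0 / w 1, 1]) 1 = y1 at *
  have h3 : y1 ≠ 0 := right_ne_zero_of_mul h2
  have n1 : 0 < ‖w 1‖ := norm_pos_iff.2 h1
  have n3 : 0 < ‖y1‖ := norm_pos_iff.2 h3
  rw [mul_div_mul_left _ _ h1, norm_mul]
  have f1 := T0_hom y1 (w 0 / w 1) (y0 / y1) 1
  have f2 := Fh_hom 1 y1 (w 0 / w 1) 1 (y0 / y1) 1
  rw [mul_div_cancel₀ _ h3, mul_one] at f1
  rw [mul_div_cancel₀ _ h3, mul_one, mul_one, one_mul, e2, one_pow, one_mul] at f2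
  have f3 := (mul_eq_zero.1 f2.symm).resolve_left (pow_ne_zero _ h3)
  rw [f1, norm_mul, norm_pow] at e1
  have f4 := eq_inv_of_mul_eq_one_right e1
  constructor
  · intro k
    refine (c.tr2 f3 (norm_pos_iff.1 (by rw [f4]; positivity)) (by positivity) k).mono (le_of_eq ?_)
    rw [f4]
    field_simp
  · intro k
    refine (c.tr1 f3 (by positivity) k).mono (le_of_eq ?_)
    rw [f4]
    field_simp

theorem step {g h h' k : M2} (hg : Good M α g) (hh : IsGr h) (hh' : IsGr h') (e : h' * k = 1) :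
    Good M α (g * (h * k)) := by
  have k0 : k.det ≠ 0 := right_ne_zero_of_mul (by rw [← det_mul, e, det_one]; exact one_ne_zero)
  have q := mob (q := h * k) (by rw [det_mul]; exact mul_ne_zero hh.1 k0)
  filter_upwards [(mob k0).1, q.1, q.2.eventually hg] with Y h1 h2 h3
  rw [← mulVec_mulVec] at h2 h3
  have e1 : h' *ᵥ k *ᵥ ![Y, 1] = ![Y, 1] := by rw [mulVec_mulVec, e, one_mulVec]
  have a := (c.gr_iff hh' h1 (by rw [e1]; simp) (a := ‖g *ᵥ h *ᵥ k *ᵥ ![Y, 1]‖ ^ 6) (by positivity)).2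
    ((c.gr_iff hh h1 h2 (by positivity)).1 (h3.mono (le_of_eq (by
      have n := norm_pos_iff.2 h2
      conv_rhs => rw [vec_eq h2, mulVec_smul, norm_smul]
      simp only [Pi.smul_apply, smul_eq_mul, cons_val_one, cons_val_zero, mul_one]
      field_simp))))
  rw [e1] at a
  rw [← mulVec_mulVec, ← mulVec_mulVec]
  simpa only [cons_val_zero, cons_val_one, cons_val_fin_one, div_one, norm_one, one_pow] using a

theorem good (n : ℕ) : Good M α (DD n) := by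
  induction n with
  | zero =>
    refine .of_forall fun Y => (c.base Y).mono (pow_le_pow_left₀ (by positivity) (max_le ?_ ?_) 6)
    · simpa [mv1, DD] using norm_le_pi_norm (DD 0 *ᵥ ![Y, 1]) 1
    · simpa [mv0, DD] using norm_le_pi_norm (DD 0 *ᵥ ![Y, 1]) 0
  | succ n ih => exact DD_succ n ▸ c.step (c.step ih gr1 gr2 inv2) gr1 gr3 inv3

theorem quarter : ∀ᶠ m in atTop, ∀ s t, ‖s‖ = 1 → ‖t ^ m‖ ≤ 2 → α m s t ≤ 1 / 4 * M m := by
  obtain ⟨n1, n2, n3, n4⟩ := num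
  obtain ⟨n, hn⟩ := exists_pow_lt_of_lt_one (x := 1 / (8 * 256 ^ 6 * 5 ^ 5)) (by positivity)
    (n4.trans_lt (by norm_num : (1 / 2 : ℝ) < 1))
  rw [← norm_pow] at hn
  have g1 := c.good n
  have g2 := c.step g1 gr1 gr3 inv3
  have g3 := c.step g1 gr3 gr1 (one_mul 1)
  have dn := DD_norm n
  have ρ0 : 0 < ‖(2 * pp ^ 2) ^ n‖ := by rw [norm_pow]; positivity
  generalize ‖(2 * pp ^ 2) ^ n‖ = ρ at hn dn ρ0
  have ρ1 : ρ < 1 / 1000 := hn.trans (by norm_num)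
  obtain ⟨r, ⟨r1, r2⟩, hr⟩ := exists_r (g1.and (g2.and g3)) (fun Y => ‖LL Y‖) (a := ρ ^ 2)
    (b := 2 * ρ ^ 2) (by nlinarith)
  have r0 : 0 < r := lt_trans (by positivity) r1
  have r3 : r < 1 / 512 := by nlinarith
  have cL : Continuous fun Y => ‖LL Y‖ := by unfold LL; fun_prop
  have bd : ∀ Y, ‖LL Y‖ = r → ‖Y‖ ≤ 2 := fun Y h => by
    rcases near3 h r3 with k | k | k
    · rw [sub_zero] at k; linarith
    · linarith [norm_sub_norm_le Y (2 * pp ^ 2)]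
    · have := norm_sub_norm_le Y (-1)
      rw [norm_neg, norm_one] at this
      linarith
  have hK : IsCompact {Y | ‖LL Y‖ = r} :=
    isCompact_of_isClosed_isBounded (isClosed_eq cL continuous_const)
      ((isBounded_closedBall (x := (0 : ℂ)) (r := 2)).subset fun Y h =>
        mem_closedBall_zero_iff.2 (bd Y h))
  have hA : ∀ Y, ‖LL Y‖ = r → A M α Y ((256 * ρ) ^ 6) := fun Y h => by
    obtain ⟨a1, a2, a3⟩ := hr Y h
    have y2 := bd Y h
    rcases near3 h r3 with k | k | k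
    · refine a1.mono (pow_le_pow_left₀ (norm_nonneg _) (dn _ ?_ (by simp)) 6)
      rw [sub_zero] at k
      show ‖Y‖ ≤ _
      linarith
    · rw [← mulVec_mulVec, one_mul] at a2
      refine a2.mono (pow_le_pow_left₀ (norm_nonneg _) (dn _ ?_ ?_) 6)
      · rw [mv0, show (!![ss, -pp; ss, pp] : M2) 0 0 * Y + (!![ss, -pp; ss, pp] : M2) 0 1 * 1 =
          ss * (Y - 2 * pp ^ 2) by simp; linear_combination (2 * pp) * pp_mul_ss, norm_mul]
        nlinarith [mul_le_mul n2 k (norm_nonneg _) zero_le_two]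
      · rw [mv1]
        refine (norm_add_le _ _).trans ?_
        simp only [of_apply, cons_val', cons_val_zero, cons_val_one, cons_val_fin_one, norm_mul,
          mul_one]
        nlinarith [mul_le_mul n2 y2 (norm_nonneg _) zero_le_two]
    · rw [← mulVec_mulVec, mul_one] at a3
      refine a3.mono (pow_le_pow_left₀ (norm_nonneg _) (dn _ ?_ ?_) 6)
      · rw [mv0, show (!![pp, pp; -ss, ss] : M2) 0 0 * Y + (!![pp, pp; -ss, ss] : M2) 0 1 * 1 =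
          pp * (Y - -1) by simp; ring, norm_mul]
        nlinarith [mul_le_mul n1 k (norm_nonneg _) (by norm_num)]
      · rw [mv1]
        refine (norm_add_le _ _).trans ?_
        simp only [of_apply, cons_val', cons_val_zero, cons_val_one, cons_val_fin_one, norm_mul,
          mul_one, norm_neg]
        nlinarith [mul_le_mul n2 y2 (norm_nonneg _) zero_le_two]
  filter_upwards [S.cpt hK (c := 2 * (256 * ρ) ^ 6) fun Y h => hA Y h _ (by
    have : 0 < (256 * ρ) ^ 6 := by positivity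
    linarith), eventually_ge_atTop 2] with m h1 h2 s t hs ht
  have hm : 1 ≤ m := by omega
  obtain ⟨C, hC⟩ := c.gα2 hm s
  obtain ⟨t', a1, a2⟩ := mp ((c.h m hm).α2 s) (f := fun t => LL (t ^ m)) (c := 5 / 2)
    (by unfold LL; fun_prop) hC (gr_LL hm) (by
      have : (2 : ℝ) ≤ m := by exact_mod_cast h2
      push_cast
      linarith) (by norm_num) r0
  have a3 := h1 s t' hs a1
  have a4 : ‖LL (t ^ m)‖ ≤ 2 * 3 * 3 := by
    rw [LL, norm_mul, norm_mul, sub_zero]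
    have b1 := norm_sub_le (t ^ m) (2 * pp ^ 2)
    have b2 := norm_sub_le (t ^ m) (-1)
    rw [norm_neg, norm_one] at b2
    gcongr <;> linarith
  have a5 : max 1 (‖LL (t ^ m)‖ / r) ≤ (5 / ρ) ^ 2 := by
    rw [div_pow]
    refine max_le ((one_le_div (by positivity)).2 (by nlinarith)) ?_
    gcongr
    linarith
  have a6 : max 1 (‖LL (t ^ m)‖ / r) ^ (5 / 2 : ℝ) ≤ (5 / ρ) ^ 5 := by
    refine (Real.rpow_le_rpow (by positivity) a5 (by norm_num)).trans_eq ?_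
    rw [← Real.rpow_natCast, ← Real.rpow_natCast, ← Real.rpow_mul (by positivity)]
    norm_num
  have M1 := c.M0 m hm
  rw [lt_div_iff₀ (by positivity)] at hn
  calc α m s t ≤ 2 * (256 * ρ) ^ 6 * M m * (5 / ρ) ^ 5 :=
        (a2 t).trans (mul_le_mul a3.le a6 (by positivity) (by positivity))
    _ = ρ * (8 * 256 ^ 6 * 5 ^ 5) / 4 * M m := by field_simp; ring
    _ ≤ _ := by gcongr

theorem fin : False := by
  have h1 : ∀ Y ∈ sphere (0 : ℂ) 1, S M (fun m t s => β m s t) Y 1 := fun Y hY => by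
    have a : A M α Y (1 / 4) := fun a ha => by
      filter_upwards [(c.quarter.and (eventually_ge_atTop 1)).prod_mk (closedBall_mem_nhds Y one_pos)]
        with ⟨m, Y'⟩ ⟨⟨b1, b2⟩, b3⟩ s t hs ht
      have e : t ^ m = Y' := ht
      have k : ‖Y' - Y‖ ≤ 1 := mem_closedBall_iff_norm.1 b3
      have k' := norm_sub_norm_le Y' Y
      rw [mem_sphere_zero_iff_norm.1 hY] at k'
      exact (b1 s t hs (by rw [e]; linarith)).trans_lt (mul_lt_mul_of_pos_right ha (c.M0 m b2))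
    exact c.tr2 (Fh_gr1 Y) (by rw [T0_gr1]; exact one_ne_zero) (by norm_num) a 1
      (by rw [T0_gr1]; norm_num)
  obtain ⟨m, h2, h3, hm⟩ := ((S.cpt (isCompact_sphere _ _) h1).and
    (c.quarter.and (eventually_ge_atTop 1))).exists
  obtain ⟨s, t, hs, ht, h⟩ := c.at' m hm
  have a1 := h2 t s ht (by simp [hs])
  have a2 := h3 s t hs (by simp [ht])
  have M1 := c.M0 m hm
  rcases le_max_iff.1 h with k | k <;> linarith

end Ctx

end Co

theorem core : CoreStmt := fun _ _ _ h =>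
  let ⟨_, c⟩ := Co.exists_ctx h
  c.fin

end Vale.Agent.P296
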