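import Vale.Agent.P296.Spec

/-! Maximum principles and the transfer lemma. -/

namespace Vale.Agent.P296.Co

open Filter Topology Metric

/-- polynomial growth from below -/
def Gr (f : ℂ → ℂ) (d : ℕ) : Prop := ∃ R : ℝ, ∀ t, R ≤ ‖t‖ → ‖t‖ ^ d ≤ 8 * ‖f t‖

theorem gr_half {m : ℕ} (hm : 1 ≤ m) (Y t : ℂ) (h : max 1 (2 * ‖Y‖) ≤ ‖t‖) :
    ‖t‖ ^ m ≤ 2 * ‖t ^ m - Y‖ := by
  have h1 : ‖t‖ ≤ ‖t‖ ^ m := le_self_pow₀ (le_of_max_le_left h) (by omega)
  have h2 := norm_sub_norm_le (t ^ m) Y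
  rw [norm_pow] at h2
  linarith [le_of_max_le_right h]

theorem gr_pow {m : ℕ} (hm : 1 ≤ m) (Y : ℂ) : Gr (fun t => t ^ m - Y) m :=
  ⟨_, fun t h => by linarith [gr_half hm Y t h, norm_nonneg (t ^ m - Y)]⟩

theorem gr_id : Gr (fun t => t) 1 := ⟨0, fun t _ => by rw [pow_one]; linarith [norm_nonneg t]⟩

theorem mp0 {u : ℂ → ℝ} (hu : LS u) {m : ℕ} (hm : 1 ≤ m) (X : ℂ) {r : ℝ} {t : ℂ}
    (ht : ‖t ^ m - X‖ ≤ r) : ∃ t', ‖t' ^ m - X‖ = r ∧ u t ≤ u t' := by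
  have c : Continuous fun t : ℂ => ‖t ^ m - X‖ := by fun_prop
  have hK : IsCompact {t : ℂ | ‖t ^ m - X‖ ≤ r} := by
    refine isCompact_of_isClosed_isBounded (isClosed_le c continuous_const)
      ((isBounded_closedBall (x := (0 : ℂ)) (r := max (max 1 (2 * ‖X‖)) (2 * r))).subset fun t h => ?_)
    rw [mem_closedBall_zero_iff]
    by_contra k
    rw [not_le, max_lt_iff] at k
    have h1 := gr_half hm X t k.1.le
    have h2 : ‖t‖ ≤ ‖t‖ ^ m := le_self_pow₀ (le_of_max_le_left k.1.le) (by omega)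
    have h3 : ‖t ^ m - X‖ ≤ r := h
    linarith [k.2]
  obtain ⟨t', h1, h2⟩ := hK.exists_isMaxOn ⟨t, ht⟩ hu.cont.continuousOn
  refine ⟨t', (eq_or_lt_of_le h1).resolve_right fun h => ?_, h2 ht⟩
  refine hu.nomax t' (fun _ => 1) analyticAt_const one_ne_zero ?_
  filter_upwards [(isOpen_lt c continuous_const).mem_nhds h] with y hy
  simpa using h2 (le_of_lt hy)

theorem mp {u : ℂ → ℝ} (hu : LS u) {f : ℂ → ℂ} (hf : Differentiable ℂ f) {C c r : ℝ} {k d : ℕ}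
    (h1 : ∀ t, u t ≤ C * max 1 ‖t‖ ^ k) (h2 : Gr f d) (h3 : (k : ℝ) + 1 ≤ d * c) (c0 : 0 ≤ c)
    (r0 : 0 < r) : ∃ t', ‖f t'‖ = r ∧ ∀ t, u t ≤ u t' * max 1 (‖f t‖ / r) ^ c := by
  obtain ⟨R, h2⟩ := h2
  have p : ∀ t, 0 < max r ‖f t‖ := fun t => lt_max_of_lt_left r0
  have q : ∀ t, 0 < max r ‖f t‖ ^ c := fun t => Real.rpow_pos_of_pos (p t) _
  have cf : Continuous fun t => ‖f t‖ := hf.continuous.norm
  have cw : Continuous fun t => u t / max r ‖f t‖ ^ c :=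
    hu.cont.div ((continuous_const.max cf).rpow_const fun _ => .inr c0) fun t => (q t).ne'
  have w0 : 0 < u 0 / max r ‖f 0‖ ^ c := div_pos (hu.pos 0) (q 0)
  obtain ⟨t', ht⟩ := cw.exists_forall_ge' 0 (by
    set w := u 0 / max r ‖f 0‖ ^ c
    filter_upwards [(isCompact_closedBall (0 : ℂ) (max (max R 1) (C * 8 ^ c / w))).compl_mem_cocompact]
      with t h
    rw [Set.mem_compl_iff, mem_closedBall_zero_iff, not_le, max_lt_iff, max_lt_iff] at h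
    obtain ⟨⟨a1, a2⟩, a3⟩ := h
    have e8 : (0 : ℝ) < 8 ^ c := by positivity
    have b1 : ‖t‖ ^ (k + 1) ≤ 8 ^ c * max r ‖f t‖ ^ c := by
      rw [← Real.mul_rpow (by norm_num) (p t).le]
      refine le_trans ?_ (Real.rpow_le_rpow (by positivity)
        ((h2 t a1.le).trans (by gcongr; exact le_max_right _ _)) c0)
      rw [← Real.rpow_natCast, ← Real.rpow_natCast, ← Real.rpow_mul (norm_nonneg _)]
      exact Real.rpow_le_rpow_of_exponent_le a2.le (by simpa using h3)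
    have b2 := h1 t
    rw [max_eq_right a2.le] at b2
    rw [div_lt_iff₀ w0] at a3
    rw [div_le_iff₀ (q t)]
    have b3 : 0 < ‖t‖ ^ k := by positivity
    refine le_of_mul_le_mul_left ?_ e8
    calc 8 ^ c * u t ≤ C * 8 ^ c * ‖t‖ ^ k := by nlinarith
      _ ≤ ‖t‖ * w * ‖t‖ ^ k := by gcongr
      _ = w * ‖t‖ ^ (k + 1) := by ring
      _ ≤ w * (8 ^ c * max r ‖f t‖ ^ c) := by gcongr
      _ = _ := by ring)
  rcases lt_trichotomy ‖f t'‖ r with h | h | h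
  · refine absurd ?_ (hu.nomax t' (fun _ => 1) analyticAt_const one_ne_zero)
    filter_upwards [(isOpen_lt cf continuous_const).mem_nhds h] with y hy
    have := ht y
    rw [max_eq_left h.le, max_eq_left (le_of_lt hy),
      div_le_div_iff_of_pos_right (Real.rpow_pos_of_pos r0 _)] at this
    simpa using this
  · refine ⟨t', h, fun t => ?_⟩
    have := ht t
    rw [h, max_self, div_le_iff₀ (q t)] at this
    refine this.trans_eq ?_
    rw [show max 1 (‖f t‖ / r) = max r ‖f t‖ / r by rw [← max_div_div_right r0.le, div_self r0.ne'],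
      Real.div_rpow (p t).le r0.le]
    ring
  · have f0 : 0 < ‖f t'‖ := r0.trans h
    have f1 : f t' ≠ 0 := norm_pos_iff.1 f0
    have an : AnalyticAt ℂ (fun t => Complex.exp (-(c : ℂ) * Complex.log (f t / f t'))) t' :=
      (analyticAt_const.mul (((hf.analyticAt t').div_const).clog (by simp [f1]))).cexp
    refine absurd ?_ (hu.nomax t' _ an (Complex.exp_ne_zero _))
    have e : ∀ y, r < ‖f y‖ → ‖Complex.exp (-(c : ℂ) * Complex.log (f y / f t'))‖ * u y =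
        u y / max r ‖f y‖ ^ c * ‖f t'‖ ^ c := by
      intro y hy
      have y0 : 0 < ‖f y‖ := r0.trans hy
      rw [Complex.norm_exp, ← Complex.ofReal_neg, Complex.re_ofReal_mul, Complex.log_re, norm_div,
        mul_comm (-c), ← Real.rpow_def_of_pos (div_pos y0 f0), Real.rpow_neg (div_pos y0 f0).le,
        Real.div_rpow y0.le f0.le, max_eq_right hy.le, inv_div]
      ring
    filter_upwards [(isOpen_lt continuous_const cf).mem_nhds h] with y hy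
    rw [e y hy, e t' h]
    exact mul_le_mul_of_nonneg_right (ht y) (by positivity)

/-- smallness near a point, eventually -/
def S (M : ℕ → ℝ) (u : ℕ → ℂ → ℂ → ℝ) (Y : ℂ) (c : ℝ) : Prop :=
  ∀ᶠ q : ℕ × ℂ in atTop ×ˢ 𝓝 Y, ∀ s t, ‖s‖ = 1 → t ^ q.1 = q.2 → u q.1 s t < c * M q.1

theorem S.cpt {M : ℕ → ℝ} {u : ℕ → ℂ → ℂ → ℝ} {K : Set ℂ} (hK : IsCompact K) {c : ℝ}
    (h : ∀ Y ∈ K, S M u Y c) : ∀ᶠ m in atTop, ∀ s t, ‖s‖ = 1 → t ^ m ∈ K → u m s t < c * M m :=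
  (Eventually.curry (hK.mem_prod_nhdsSet_of_forall h)).mono fun _ k s t hs ht =>
    k.self_of_nhdsSet _ ht s t hs rfl

theorem root_lim {D : ℝ} (hD : 0 < D) :
    Tendsto (fun m : ℕ => D ^ (2 / (m : ℝ))) atTop (𝓝 1) := by
  have := (tendsto_const_nhds (x := D)).rpow (tendsto_const_div_atTop_nhds_zero_nat (2 : ℝ))
    (.inl hD.ne')
  rwa [Real.rpow_zero] at this

theorem max_pow (s : ℂ) {m : ℕ} (hm : 1 ≤ m) : max 1 ‖s‖ ^ m = max 1 ‖s ^ m‖ := by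
  rw [norm_pow]
  rcases le_total 1 ‖s‖ with h | h
  · rw [max_eq_right h, max_eq_right (one_le_pow₀ h)]
  · rw [max_eq_left h, max_eq_left (pow_le_one₀ (norm_nonneg _) h), one_pow]

theorem max_sq (s : ℂ) {m : ℕ} (hm : 1 ≤ m) {D : ℝ} (h : max 1 ‖s ^ m‖ ≤ D) :
    max 1 ‖s‖ ^ 2 ≤ D ^ (2 / (m : ℝ)) := by
  have m0 : (m : ℝ) ≠ 0 := by positivity
  refine le_trans (le_of_eq ?_) (Real.rpow_le_rpow (by positivity) h (by positivity))
  rw [← max_pow s hm, ← Real.rpow_natCast, ← Real.rpow_natCast, ← Real.rpow_mul (by positivity),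
    mul_div_cancel₀ _ m0]
  norm_num

theorem tr {M : ℕ → ℝ} {u w : ℕ → ℂ → ℂ → ℝ} {X Y : ℂ} {θ c c' : ℝ} (M0 : ∀ m, 1 ≤ m → 0 < M m)
    (u0 : ∀ m, 1 ≤ m → ∀ s t, 0 < u m s t)
    (h1 : ∀ m, 1 ≤ m → ∀ s, ∀ r > 0, ∃ t', ‖t' ^ m - Y‖ = r ∧
      ∀ t, u m s t ≤ u m s t' * max 1 (‖t ^ m - Y‖ / r) ^ (2 / (m : ℝ)))
    (h2 : ∀ m, 1 ≤ m → ∀ t, ∃ s', ‖s'‖ = 1 ∧ ∀ s, w m s t ≤ w m s' t * max 1 ‖s‖ ^ 2)
    (h3 : ∀ ε > 0, ∀ᶠ p : ℂ × ℂ in 𝓝 (X, Y), ∀ m, 1 ≤ m → ∀ s t, s ^ m = p.1 → t ^ m = p.2 →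
      u m s t ≤ (θ + ε) * w m s t + ε * M m)
    (θ0 : 0 ≤ θ) (c0 : 0 ≤ c) (h4 : S M w Y c) (h5 : θ * c < c') :
    S M (fun m t s => u m s t) X c' := by
  obtain ⟨ε, ε0, hε⟩ : ∃ ε > 0, ((θ + ε) * c * 1 + ε) * 1 < c' :=
    ⟨(c' - θ * c) / (2 * (c + 1)), div_pos (by linarith) (by linarith), by
      have : (c' - θ * c) / (2 * (c + 1)) * (2 * (c + 1)) = c' - θ * c :=
        div_mul_cancel₀ _ (by linarith)
      nlinarith⟩
  obtain ⟨δ, δ0, hδ⟩ := Metric.eventually_nhds_iff.1 (h3 ε ε0)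
  obtain ⟨pa, a1, pb, a2, a3⟩ := eventually_prod_iff.1 h4
  obtain ⟨δ', δ1, hδ'⟩ := Metric.eventually_nhds_iff.1 a2
  obtain ⟨r, r0, r1, r2, r3⟩ : ∃ r > 0, r < δ ∧ r < δ' ∧ r < 1 :=
    ⟨min (min δ δ') 1 / 2, by positivity, by
      have := min_le_left (min δ δ') 1
      have := min_le_left δ δ'
      have := min_le_right δ δ'
      have := min_le_right (min δ δ') 1
      refine ⟨?_, ?_, ?_⟩ <;> linarith⟩
  set D := 1 + (1 + ‖Y‖) / r + ‖X‖ + 1 with hD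
  have D1 : 0 < (1 + ‖Y‖) / r := by positivity
  have l := root_lim (D := D) (by positivity)
  have a4 := (((l.const_mul ((θ + ε) * c)).add_const ε).mul l).eventually_lt_const hε
  refine ((a1.and (a4.and (eventually_ge_atTop 1))).prod_mk (ball_mem_nhds X r0)).mono ?_
  rintro ⟨m, X'⟩ ⟨⟨b1, b2, b3⟩, b4⟩ t s ht hs
  have b5 : dist X' X < r := b4
  obtain ⟨t', c1, c2⟩ := h1 m b3 s r r0
  obtain ⟨s', c3, c4⟩ := h2 m b3 t'
  have d1 : dist (t' ^ m) Y = r := by rw [dist_eq_norm, c1]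
  have d2 := hδ (y := (X', t' ^ m)) (by rw [Prod.dist_eq]; exact max_lt (by linarith) (by linarith))
    m b3 s t' hs rfl
  have d3 := a3 b1 (hδ' (y := t' ^ m) (by linarith)) s' t' c3 rfl
  have d4 : max 1 ‖s‖ ^ 2 ≤ D ^ (2 / (m : ℝ)) := max_sq s b3 (max_le (by linarith [norm_nonneg X]) (by
    have := norm_sub_norm_le X' X
    rw [← dist_eq_norm] at this
    have e : s ^ m = X' := hs
    rw [e]
    linarith))
  have d5 : max 1 (‖t ^ m - Y‖ / r) ^ (2 / (m : ℝ)) ≤ D ^ (2 / (m : ℝ)) := by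
    refine Real.rpow_le_rpow (by positivity) (max_le (by linarith [norm_nonneg X]) ?_) (by positivity)
    have : ‖t ^ m - Y‖ / r ≤ (1 + ‖Y‖) / r := by
      gcongr
      simpa [ht] using norm_sub_le (t ^ m) Y
    linarith [norm_nonneg X]
  have M1 := M0 m b3
  have d6 : w m s t' ≤ c * M m * D ^ (2 / (m : ℝ)) :=
    (c4 s).trans (mul_le_mul d3.le d4 (by positivity) (by positivity))
  calc u m s t ≤ u m s t' * D ^ (2 / (m : ℝ)) :=
        (c2 t).trans (mul_le_mul_of_nonneg_left d5 (u0 m b3 s t').le)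
    _ ≤ ((θ + ε) * (c * M m * D ^ (2 / (m : ℝ))) + ε * M m) * D ^ (2 / (m : ℝ)) := by
        gcongr
        exact d2.trans (by gcongr)
    _ = ((θ + ε) * c * D ^ (2 / (m : ℝ)) + ε) * D ^ (2 / (m : ℝ)) * M m := by ring
    _ < c' * M m := by gcongr

end Vale.Agent.P296.Co
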