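import Vale.Agent.P296.Core1

/-! Local bounds and transfer along the three graphs. -/

namespace Vale.Agent.P296.Co

open Filter Topology Metric Matrix

theorem mp_id {u : ℂ → ℝ} (hu : LS u) {C : ℝ} {k : ℕ} (h : ∀ t, u t ≤ C * max 1 ‖t‖ ^ k) :
    ∃ t', ‖t'‖ = 1 ∧ ∀ t, u t ≤ u t' * max 1 ‖t‖ ^ (k + 1) := by
  obtain ⟨t', h1, h2⟩ := mp hu (f := fun t => t) (c := ((k + 1 : ℕ) : ℝ)) differentiable_id h gr_id
    (by simp) (by positivity) one_pos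
  exact ⟨t', h1, fun t => by simpa only [div_one, Real.rpow_natCast] using h2 t⟩

theorem mp_pow {u : ℂ → ℝ} (hu : LS u) {C : ℝ} (h : ∀ t, u t ≤ C * max 1 ‖t‖ ^ 1) {m : ℕ}
    (hm : 1 ≤ m) (Y : ℂ) (r : ℝ) (r0 : 0 < r) : ∃ t', ‖t' ^ m - Y‖ = r ∧
      ∀ t, u t ≤ u t' * max 1 (‖t ^ m - Y‖ / r) ^ (2 / (m : ℝ)) :=
  mp hu (f := fun t => t ^ m - Y) (by fun_prop) h (gr_pow hm Y) (by
    rw [mul_div_cancel₀ _ (by positivity)]; norm_num) (by positivity) r0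

theorem pp_ne : pp ≠ 0 := left_ne_zero_of_mul (pp_mul_ss ▸ by norm_num : pp * ss ≠ 0)
theorem ss_ne : ss ≠ 0 := right_ne_zero_of_mul (pp_mul_ss ▸ by norm_num : pp * ss ≠ 0)

theorem lin_ne {a b : ℂ} (h : a = 0 → b ≠ 0) : ∀ᶠ X in cofinite, a * X + b ≠ 0 := by
  rw [eventually_cofinite]
  refine (Set.finite_singleton (-b / a)).subset fun X hX => ?_
  have e : a * X + b = 0 := not_not.1 hX
  have a0 : a ≠ 0 := fun k => h k (by simpa [k] using e)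
  rw [Set.mem_singleton_iff, eq_div_iff a0]
  linear_combination e

theorem exists_r {P : ℂ → Prop} (hP : ∀ᶠ X in cofinite, P X) (φ : ℂ → ℝ) {a b : ℝ} (h : a < b) :
    ∃ r ∈ Set.Ioo a b, ∀ X, φ X = r → P X := by
  obtain ⟨r, h1, h2⟩ := (Set.Ioo_infinite h).exists_notMem_finite
    ((eventually_cofinite.1 hP).image φ)
  exact ⟨r, h1, fun X e => not_not.1 fun k => h2 ⟨X, k, e⟩⟩

theorem F_ne (Y : ℂ) : ∀ᶠ X in cofinite, Fh X 1 Y 1 ≠ 0 := by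
  filter_upwards [lin_ne (a := 1) (b := -Y) (by simp),
    lin_ne (a := -pp * Y + pp) (b := -(ss * Y + ss)) (fun h k => by
      refine mul_ne_zero pp_ne ss_ne ?_
      linear_combination (ss / 2) * h - (pp / 2) * k),
    lin_ne (a := ss * Y + pp) (b := -(ss * Y - pp)) (fun h k => pp_ne (by
      linear_combination (1 / 2) * h + (1 / 2) * k))] with X h1 h2 h3
  refine mul_ne_zero (mul_ne_zero ?_ ?_) ?_
  · exact fun k => h1 (by linear_combination k)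
  · exact fun k => h2 (by linear_combination k)
  · exact fun k => h3 (by linear_combination k)

theorem cF : Continuous fun p : ℂ × ℂ => ‖Fh p.1 1 p.2 1‖ := by unfold Fh; fun_prop
theorem cT : Continuous fun p : ℂ × ℂ => ‖T0 p.1 p.2 1‖ := by unfold T0; fun_prop

theorem tube {φ ψ : ℂ × ℂ → ℝ} (hφ : Continuous φ) (hψ : Continuous ψ) {K : Set ℂ}
    (hK : IsCompact K) {Y : ℂ} (h : ∀ X ∈ K, 0 < φ (X, Y)) :
    ∃ a > 0, ∃ b > 0, ∀ᶠ Y' in 𝓝 Y, ∀ X ∈ K, a ≤ φ (X, Y') ∧ ψ (X, Y') ≤ b := by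
  obtain ⟨a, a0, ha⟩ := hK.exists_forall_le' (f := fun X => φ (X, Y)) (a := 0)
    (hφ.comp (continuous_id.prodMk continuous_const)).continuousOn h
  obtain ⟨b, hb⟩ := hK.bddAbove_image (f := fun X => ψ (X, Y))
    (hψ.comp (continuous_id.prodMk continuous_const)).continuousOn
  refine ⟨a / 2, half_pos a0, |b| + 1, by positivity,
    hK.eventually_forall_of_forall_eventually fun X k => ?_⟩
  exact (((hφ.comp continuous_swap).tendsto (Y, X)).eventually_const_le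
    ((half_lt_self a0).trans_le (ha X k))).and
    (((hψ.comp continuous_swap).tendsto (Y, X)).eventually_le_const
      ((hb ⟨X, k, rfl⟩).trans_lt ((le_abs_self b).trans_lt (lt_add_one _))))

/-- the data, with the maximum on the torus -/
structure Ctx (α β η : ℕ → ℂ → ℂ → ℝ) (M : ℕ → ℝ) : Prop where
  h : ∀ m, 1 ≤ m → Nrm m (α m) (β m) (η m)
  M0 : ∀ m, 1 ≤ m → 0 < M m
  le : ∀ m, 1 ≤ m → ∀ s t, ‖s‖ = 1 → ‖t‖ = 1 → α m s t ≤ M m ∧ β m s t ≤ M m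
  at' : ∀ m, 1 ≤ m → ∃ s t, ‖s‖ = 1 ∧ ‖t‖ = 1 ∧ M m ≤ max (α m s t) (β m s t)

theorem exists_ctx {α β η : ℕ → ℂ → ℂ → ℝ} (h : ∀ m, 1 ≤ m → Nrm m (α m) (β m) (η m)) :
    ∃ M, Ctx α β η M := by
  have : ∀ m, 1 ≤ m → ∃ z ∈ sphere (0 : ℂ) 1 ×ˢ sphere (0 : ℂ) 1, IsMaxOn
      (fun z : ℂ × ℂ => max (α m z.1 z.2) (β m z.1 z.2)) (sphere 0 1 ×ˢ sphere 0 1) z := fun m hm =>
    ((isCompact_sphere _ _).prod (isCompact_sphere _ _)).exists_isMaxOn ⟨(1, 1), by simp⟩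
      ((h m hm).cα.max (h m hm).cβ).continuousOn
  choose! z z1 z2 using this
  refine ⟨fun m => max (α m (z m).1 (z m).2) (β m (z m).1 (z m).2), h,
    fun m hm => lt_max_of_lt_left (((h m hm).α2 _).pos _), fun m hm s t hs ht => ?_,
    fun m hm => ⟨_, _, by simpa using (z1 m hm).1, by simpa using (z1 m hm).2, le_rfl⟩⟩
  exact max_le_iff.1 (z2 m hm (a := (s, t)) ⟨by simpa using hs, by simpa using ht⟩)

namespace Ctx
variable {α β η : ℕ → ℂ → ℂ → ℝ} {M : ℕ → ℝ} (c : Ctx α β η M) {m : ℕ}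
include c

theorem gα1 (hm : 1 ≤ m) (t : ℂ) : ∃ C, ∀ s, α m s t ≤ C * max 1 ‖s‖ ^ 1 :=
  let ⟨C, h⟩ := (c.h m hm).gα
  ⟨C * max 1 ‖t‖ ^ (6 * m + 1), fun s => (h s t).trans_eq (by ring)⟩

theorem gα2 (hm : 1 ≤ m) (s : ℂ) : ∃ C, ∀ t, α m s t ≤ C * max 1 ‖t‖ ^ (6 * m + 1) :=
  let ⟨C, h⟩ := (c.h m hm).gα
  ⟨C * max 1 ‖s‖, fun t => h s t⟩

theorem gβ1 (hm : 1 ≤ m) (t : ℂ) : ∃ C, ∀ s, β m s t ≤ C * max 1 ‖s‖ ^ (6 * m + 1) :=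
  let ⟨C, h⟩ := (c.h m hm).gβ
  ⟨C * max 1 ‖t‖, fun s => (h s t).trans_eq (by ring)⟩

theorem gβ2 (hm : 1 ≤ m) (s : ℂ) : ∃ C, ∀ t, β m s t ≤ C * max 1 ‖t‖ ^ 1 :=
  let ⟨C, h⟩ := (c.h m hm).gβ
  ⟨C * max 1 ‖s‖ ^ (6 * m + 1), fun t => (h s t).trans_eq (by ring)⟩

theorem mα (hm : 1 ≤ m) (t : ℂ) : ∃ s', ‖s'‖ = 1 ∧ ∀ s, α m s t ≤ α m s' t * max 1 ‖s‖ ^ 2 :=
  let ⟨_, h⟩ := c.gα1 hm t
  mp_id ((c.h m hm).α1 t) h

theorem mβ (hm : 1 ≤ m) (s : ℂ) : ∃ t', ‖t'‖ = 1 ∧ ∀ t, β m s t ≤ β m s t' * max 1 ‖t‖ ^ 2 :=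
  let ⟨_, h⟩ := c.gβ2 hm s
  mp_id ((c.h m hm).β2 s) h

theorem bα (hm : 1 ≤ m) {s : ℂ} (hs : ‖s‖ = 1) (t : ℂ) :
    α m s t ≤ M m * (max 1 ‖t ^ m‖ ^ 6 * max 1 ‖t‖ ^ 2) := by
  obtain ⟨_, h⟩ := c.gα2 hm s
  obtain ⟨t', h1, h2⟩ := mp_id ((c.h m hm).α2 s) h
  refine (h2 t).trans (mul_le_mul (c.le m hm s t' hs h1).1 (le_of_eq ?_) (by positivity)
    (c.M0 m hm).le)
  rw [← max_pow t hm]
  ring

theorem bβ (hm : 1 ≤ m) {t : ℂ} (ht : ‖t‖ = 1) (s : ℂ) :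
    β m s t ≤ M m * (max 1 ‖s ^ m‖ ^ 6 * max 1 ‖s‖ ^ 2) := by
  obtain ⟨_, h⟩ := c.gβ1 hm t
  obtain ⟨s', h1, h2⟩ := mp_id ((c.h m hm).β1 t) h
  refine (h2 s).trans (mul_le_mul (c.le m hm s' t h1 ht).2 (le_of_eq ?_) (by positivity)
    (c.M0 m hm).le)
  rw [← max_pow s hm]
  ring

theorem bb (hm : 1 ≤ m) {s t : ℂ} {D : ℝ} (hs : max 1 ‖s ^ m‖ ≤ D) (ht : max 1 ‖t ^ m‖ ≤ D) :
    α m s t ≤ D ^ 10 * M m ∧ β m s t ≤ D ^ 10 * M m := by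
  have k : ∀ s : ℂ, max 1 ‖s ^ m‖ ≤ D → max 1 ‖s‖ ≤ D := fun s h =>
    (le_self_pow₀ (le_max_left _ _) (by omega)).trans ((max_pow s hm).trans_le h)
  have k1 := k s hs
  have k2 := k t ht
  have M1 := c.M0 m hm
  have D0 : 0 ≤ D := zero_le_one.trans (le_of_max_le_left hs)
  obtain ⟨s', a1, a2⟩ := c.mα hm t
  obtain ⟨t', b1, b2⟩ := c.mβ hm s
  have a3 := c.bα hm a1 t
  have b3 := c.bβ hm b1 s
  constructor
  · calc α m s t ≤ M m * (D ^ 6 * D ^ 2) * D ^ 2 := (a2 s).trans (by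
          gcongr
          exact a3.trans (by gcongr))
      _ = _ := by ring
  · calc β m s t ≤ M m * (D ^ 6 * D ^ 2) * D ^ 2 := (b2 t).trans (by
          gcongr
          exact b3.trans (by gcongr))
      _ = _ := by ring

theorem loc (X Y : ℂ) : ∃ N, 0 ≤ N ∧ ∀ᶠ p : ℂ × ℂ in 𝓝 (X, Y), ∀ m, 1 ≤ m → ∀ s t,
    s ^ m = p.1 → t ^ m = p.2 → η m s t ≤ N * M m := by
  obtain ⟨r, ⟨r0, r1⟩, hr⟩ := exists_r (F_ne Y) (fun X' => ‖X' - X‖) one_pos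
  have hK := isCompact_sphere X r
  obtain ⟨a, a0, b, b0, e⟩ := tube cF cT hK (Y := Y)
    fun X' h => norm_pos_iff.2 (hr X' (mem_sphere_iff_norm.1 h))
  set D := 1 + ‖X‖ + ‖Y‖ + 1
  refine ⟨(D ^ 10 + b * D ^ 10) / a, by positivity, ?_⟩
  rw [nhds_prod_eq]
  refine (Eventually.prod_mk (closedBall_mem_nhds X r0) (e.and (closedBall_mem_nhds Y one_pos))).mono ?_
  rintro ⟨X', Y'⟩ ⟨h1, h2, h3⟩ m hm s t rfl rfl
  obtain ⟨s', k1, k2⟩ := mp0 ((c.h m hm).η1 t) hm X (mem_closedBall_iff_norm.1 h1)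
  obtain ⟨k3, k4⟩ := h2 (s' ^ m) (mem_sphere_iff_norm.2 k1)
  have k5 : ‖t ^ m - Y‖ ≤ 1 := mem_closedBall_iff_norm.1 h3
  have n1 := norm_nonneg X
  have n2 := norm_nonneg Y
  obtain ⟨k6, k7⟩ := c.bb hm (s := s') (t := t) (D := D)
    (max_le (by linarith) (by linarith [norm_sub_norm_le (s' ^ m) X]))
    (max_le (by linarith) (by linarith [norm_sub_norm_le (t ^ m) Y]))
  have k8 := (c.h m hm).t3 s' t
  have k9 := ((c.h m hm).η1 t).pos s'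
  have k10 := ((c.h m hm).β1 t).pos s'
  refine k2.trans ?_
  rw [div_mul_eq_mul_div, le_div_iff₀ (by positivity)]
  have k11 : ‖T0 (s' ^ m) (t ^ m) 1‖ * β m s' t ≤ b * (D ^ 10 * M m) :=
    mul_le_mul k4 k7 k10.le b0.le
  have k12 := mul_le_mul_of_nonneg_right k3 k9.le
  linarith

theorem small {X Y : ℂ} (hF : Fh X 1 Y 1 = 0) {ε : ℝ} (ε0 : 0 < ε) :
    ∀ᶠ p : ℂ × ℂ in 𝓝 (X, Y), ∀ m, 1 ≤ m → ∀ s t, s ^ m = p.1 → t ^ m = p.2 →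
      ‖Fh (s ^ m) 1 (t ^ m) 1‖ * η m s t ≤ ε * M m := by
  obtain ⟨N, N0, hN⟩ := c.loc X Y
  have e : ∀ᶠ p : ℂ × ℂ in 𝓝 (X, Y), ‖Fh p.1 1 p.2 1‖ * N < ε :=
    ((cF.mul_const N).tendsto (X, Y)).eventually_lt_const (by simpa [hF] using ε0)
  filter_upwards [hN, e] with p h1 h2 m hm s t hs ht
  have := h1 m hm s t hs ht
  have M1 := c.M0 m hm
  rw [hs, ht]
  calc _ ≤ ‖Fh p.1 1 p.2 1‖ * (N * M m) := by gcongr
    _ = ‖Fh p.1 1 p.2 1‖ * N * M m := by ring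
    _ ≤ _ := by gcongr

end Ctx

/-- asymptotic bound at a point -/
def A (M : ℕ → ℝ) (u : ℕ → ℂ → ℂ → ℝ) (Y : ℂ) (a : ℝ) : Prop := ∀ a' > a, S M u Y a'

namespace Ctx
variable {α β η : ℕ → ℂ → ℂ → ℝ} {M : ℕ → ℝ} (c : Ctx α β η M)
include c

theorem tr1 {X Y : ℂ} (hF : Fh X 1 Y 1 = 0) {a : ℝ} (a0 : 0 ≤ a)
    (h : A M (fun m t s => β m s t) X a) : A M α Y (‖T0 X Y 1‖ * a) := by
  intro a' ha
  obtain ⟨b, b1, b2⟩ : ∃ b, ‖T0 X Y 1‖ * b < a' ∧ a < b :=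
    ((((continuous_const.mul continuous_id).continuousAt.eventually_lt_const ha).filter_mono
      nhdsWithin_le_nhds).and (self_mem_nhdsWithin (a := a) (s := Set.Ioi a))).exists
  refine tr (u := fun m t s => α m s t) (X := Y) (Y := X) c.M0
    (fun m hm t s => ((c.h m hm).α1 t).pos s)
    (fun m hm t r r0 => let ⟨_, k⟩ := c.gα1 hm t; mp_pow ((c.h m hm).α1 t) k hm X r r0)
    (fun m hm s => c.mβ hm s) (fun ε ε0 => ?_) (norm_nonneg _) (a0.trans b2.le) (h b b2) b1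
  have e : ∀ᶠ p : ℂ × ℂ in 𝓝 (X, Y), ‖T0 p.1 p.2 1‖ < ‖T0 X Y 1‖ + ε :=
    (cT.tendsto (X, Y)).eventually_lt_const (lt_add_of_pos_right _ ε0)
  filter_upwards [(continuous_swap.tendsto (Y, X)).eventually ((c.small hF ε0).and e)]
    with p ⟨h1, h2⟩ m hm t s ht hs
  have k1 := h1 m hm s t hs ht
  have k2 := (c.h m hm).t1 s t
  have k3 := ((c.h m hm).β1 t).pos s
  have k4 : ‖T0 (s ^ m) (t ^ m) 1‖ < ‖T0 X Y 1‖ + ε := by rw [hs, ht]; exact h2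
  nlinarith

theorem tr2 {X Y : ℂ} (hF : Fh X 1 Y 1 = 0) (hT : T0 X Y 1 ≠ 0) {a : ℝ} (a0 : 0 ≤ a)
    (h : A M α Y a) : A M (fun m t s => β m s t) X (‖T0 X Y 1‖⁻¹ * a) := by
  intro a' ha
  have T1 : 0 < ‖T0 X Y 1‖ := norm_pos_iff.2 hT
  obtain ⟨b, b1, b2⟩ : ∃ b, ‖T0 X Y 1‖⁻¹ * b < a' ∧ a < b :=
    ((((continuous_const.mul continuous_id).continuousAt.eventually_lt_const ha).filter_mono
      nhdsWithin_le_nhds).and (self_mem_nhdsWithin (a := a) (s := Set.Ioi a))).exists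
  refine tr c.M0 (fun m hm s t => ((c.h m hm).β1 t).pos s)
    (fun m hm s r r0 => let ⟨_, k⟩ := c.gβ2 hm s; mp_pow ((c.h m hm).β2 s) k hm Y r r0)
    (fun m hm t => c.mα hm t) (fun ε ε0 => ?_) (inv_nonneg.2 T1.le) (a0.trans b2.le) (h b b2) b1
  have p0 : 0 < ‖T0 X Y 1‖⁻¹ + ε := by positivity
  have e : ∀ᶠ p : ℂ × ℂ in 𝓝 (X, Y), 1 < (‖T0 X Y 1‖⁻¹ + ε) * ‖T0 p.1 p.2 1‖ := by
    refine ((cT.const_mul (‖T0 X Y 1‖⁻¹ + ε)).tendsto (X, Y)).eventually_const_lt ?_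
    dsimp only
    rw [add_mul, inv_mul_cancel₀ T1.ne']
    exact lt_add_of_pos_right _ (mul_pos ε0 T1)
  filter_upwards [c.small hF (div_pos ε0 p0), e] with p h1 h2 m hm s t hs ht
  have k1 := mul_le_mul_of_nonneg_left (h1 m hm s t hs ht) p0.le
  have k2 := mul_le_mul_of_nonneg_left ((c.h m hm).t2 s t) p0.le
  have k3 := ((c.h m hm).β1 t).pos s
  rw [← mul_assoc _ (ε / _), mul_div_cancel₀ _ p0.ne'] at k1
  rw [← hs, ← ht] at h2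
  nlinarith

theorem base (Y : ℂ) : A M α Y (max 1 ‖Y‖ ^ 6) := by
  intro a ha
  have l : Tendsto (fun q : ℕ × ℂ => max 1 ‖q.2‖ ^ 6 * (‖Y‖ + 2) ^ (2 / (q.1 : ℝ)))
      (atTop ×ˢ 𝓝 Y) (𝓝 (max 1 ‖Y‖ ^ 6 * 1)) :=
    ((tendsto_const_nhds.max tendsto_snd.norm).pow 6).mul
      ((root_lim (D := ‖Y‖ + 2) (by positivity)).comp tendsto_fst)
  filter_upwards [l.eventually_lt_const (by rwa [mul_one]),
    (eventually_ge_atTop 1).prod_mk (closedBall_mem_nhds Y one_pos)] with ⟨m, Y'⟩ h1 ⟨hm, h2⟩ s t hs ht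
  have e : t ^ m = Y' := ht
  have k5 : ‖Y' - Y‖ ≤ 1 := mem_closedBall_iff_norm.1 h2
  have k1 := max_sq t hm (D := ‖Y‖ + 2) (max_le (by linarith [norm_nonneg Y])
    (by rw [e]; linarith [norm_sub_norm_le Y' Y]))
  have k2 := c.bα hm hs t
  have M1 := c.M0 m hm
  rw [e] at k2
  calc α m s t ≤ M m * (max 1 ‖Y'‖ ^ 6 * (‖Y‖ + 2) ^ (2 / (m : ℝ))) := k2.trans (by gcongr)
    _ < M m * a := by gcongr
    _ = _ := mul_comm _ _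

end Ctx

end Vale.Agent.P296.Co
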