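import Mathlib

/-! Holomorphic vector bundles on the product of two projective lines, ampleness and
Griffiths positivity. -/

namespace Vale.Agent.P296

open Matrix Complex
open scoped ComplexOrder ContDiff

/-- the complex projective line -/
abbrev P1 : Type := Projectivization ℂ (Fin 2 → ℂ)

theorem vec_ne (b : Bool) (t : ℂ) : (if b then ![1, t] else ![t, 1] : Fin 2 → ℂ) ≠ 0 := by
  cases b <;> simp

/-- the two standard affine charts `t ↦ [t : 1]` and `t ↦ [1 : t]` of the projective line -/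
noncomputable def pt (b : Bool) (t : ℂ) : P1 :=
  Projectivization.mk ℂ (if b then ![1, t] else ![t, 1]) (vec_ne b t)

/-- the four standard affine charts of `P1 × P1` -/
noncomputable def ch (a : Bool × Bool) (z : ℂ × ℂ) : P1 × P1 := (pt a.1 z.1, pt a.2 z.2)

/-- A holomorphic vector bundle of rank `r` on `P1 × P1`, trivial on the four standard charts.
A vector with coordinates `u` in the frame of chart `b` has coordinates `g a b z *ᵥ u` in the
frame of chart `a`, where `z` is the coordinate of the base point in chart `a`. -/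
structure Bundle (r : ℕ) where
  g : Bool × Bool → Bool × Bool → ℂ × ℂ → Matrix (Fin r) (Fin r) ℂ
  hol : ∀ a b i j, DifferentiableOn ℂ (fun z => g a b z i j) {z | ch a z ∈ Set.range (ch b)}
  refl : ∀ a z, g a a z = 1
  cocycle : ∀ a b c z z' z'', ch a z = ch b z' → ch a z = ch c z'' →
    g a b z * g b c z' = g a c z

variable {r : ℕ}

/-- Global holomorphic sections of `O(k)` on the projective bundle of one dimensional quotients:
holomorphic functions on the total space of the dual bundle, homogeneous of degree `k` on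
fibres, written in the four charts. -/
structure IsSec (E : Bundle r) (k : ℕ) (S : Bool × Bool → (ℂ × ℂ) × (Fin r → ℂ) → ℂ) : Prop where
  hol : ∀ a, Differentiable ℂ (S a)
  hom : ∀ a z v (c : ℂ), S a (z, c • v) = c ^ k * S a (z, v)
  glue : ∀ a b z z' v, ch a z = ch b z' → S b (z', v ᵥ* E.g a b z) = S a (z, v)

/-- `E` is ample: for some `k ≥ 1` finitely many sections of `O(k)` have no common zero and
define an injective immersion of the projective bundle into a projective space. -/
def Ample (E : Bundle r) : Prop :=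
  ∃ (k N : ℕ) (S : Fin N → Bool × Bool → (ℂ × ℂ) × (Fin r → ℂ) → ℂ),
    0 < k ∧ (∀ n, IsSec E k (S n)) ∧
    (∀ a z v, v ≠ 0 → ∃ n, S n a (z, v) ≠ 0) ∧
    (∀ a b z z' v v' (c : ℂ), v ≠ 0 → v' ≠ 0 → (∀ n, S n b (z', v') = c * S n a (z, v)) →
      ch a z = ch b z' ∧ ∃ d : ℂ, v' = d • (v ᵥ* E.g a b z)) ∧
    (∀ a z v w, v ≠ 0 → (∀ n, fderiv ℂ (S n a) (z, v) w = 0) → w = 0)

/-- the derivative `∑ ξ_j ∂/∂z_j`, entrywise -/
noncomputable def dz (H : ℂ × ℂ → Matrix (Fin r) (Fin r) ℂ) (ξ z : ℂ × ℂ) :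
    Matrix (Fin r) (Fin r) ℂ :=
  Matrix.of fun i j =>
    (fderiv ℝ (fun w => H w i j) z ξ - I * fderiv ℝ (fun w => H w i j) z (I • ξ)) / 2

/-- the derivative `∑ conj ξ_j ∂/∂(conj z_j)`, entrywise -/
noncomputable def dzb (H : ℂ × ℂ → Matrix (Fin r) (Fin r) ℂ) (ξ z : ℂ × ℂ) :
    Matrix (Fin r) (Fin r) ℂ :=
  Matrix.of fun i j =>
    (fderiv ℝ (fun w => H w i j) z ξ + I * fderiv ℝ (fun w => H w i j) z (I • ξ)) / 2

/-- the curvature endomorphism `∑ c_jk ξ_j conj ξ_k` of the Chern connection `H⁻¹ ∂H` of the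
metric `u ↦ u* H u` in a holomorphic frame -/
noncomputable def curv (H : ℂ × ℂ → Matrix (Fin r) (Fin r) ℂ) (ξ z : ℂ × ℂ) :
    Matrix (Fin r) (Fin r) ℂ :=
  -dzb (fun w => (H w)⁻¹ * dz H ξ w) ξ z

/-- `h` is a smooth Hermitian metric on `E` with strictly Griffiths positive curvature. -/
structure IsGriffiths (E : Bundle r) (h : Bool × Bool → ℂ × ℂ → Matrix (Fin r) (Fin r) ℂ) :
    Prop where
  smooth : ∀ a i j, ContDiff ℝ ∞ fun z => h a z i j
  pos : ∀ a z, (h a z).PosDef
  glue : ∀ a b z z', ch a z = ch b z' → h b z' = (E.g a b z)ᴴ * h a z * E.g a b z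
  curv_pos : ∀ a z ξ u, ξ ≠ 0 → u ≠ 0 → 0 < (star u ⬝ᵥ (h a z * curv (h a) ξ z) *ᵥ u).re

end Vale.Agent.P296
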