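import Vale.Agent.P296.Spec

/-! Laurent monomials on the torus and vanishing of the first cohomology of line bundles. -/

namespace Vale.Agent.P296.GG

open Matrix Complex Submodule

abbrev Tor : Type := ℂˣ × ℂˣ
abbrev FF : Type := Tor × V2 → ℂ
abbrev Op : Type := Option Bool × Option Bool

noncomputable def mono (e : ℤ × ℤ) : FF := fun w => (w.1.1 : ℂ) ^ e.1 * (w.1.2 : ℂ) ^ e.2

theorem mono_add (e e' : ℤ × ℤ) : mono (e + e') = mono e * mono e' := by
  ext w
  simp only [mono, Prod.fst_add, Prod.snd_add, zpow_add₀ (Units.ne_zero _), Pi.mul_apply]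
  ring

theorem mono_zero : mono 0 = 1 := by ext w; simp [mono]

theorem mono_ne (e : ℤ × ℤ) (w : Tor × V2) : mono e w ≠ 0 :=
  mul_ne_zero (zpow_ne_zero _ (Units.ne_zero _)) (zpow_ne_zero _ (Units.ne_zero _))

theorem mono_nsmul (k : ℕ) (e : ℤ × ℤ) : mono (k • e) = mono e ^ k := by
  induction k with
  | zero => simp [mono_zero]
  | succ k ih => rw [succ_nsmul, mono_add, ih, pow_succ]

noncomputable def chr (e : ℤ × ℤ) : Tor →* ℂ where
  toFun z := (z.1 : ℂ) ^ e.1 * (z.2 : ℂ) ^ e.2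
  map_one' := by simp
  map_mul' z w := by simp only [Prod.fst_mul, Prod.snd_mul, Units.val_mul, mul_zpow]; ring

theorem two_inj {i j : ℤ} (h : (2 : ℂ) ^ i = 2 ^ j) : i = j := by
  have h2 : (2 : ℝ) ^ i = 2 ^ j := by simpa using congrArg norm h
  exact zpow_right_injective₀ (by norm_num) (by norm_num) h2

theorem chr_inj : Function.Injective chr := by
  intro e e' h
  have h1 := DFunLike.congr_fun h (Units.mk0 2 two_ne_zero, 1)
  have h2 := DFunLike.congr_fun h (1, Units.mk0 2 two_ne_zero)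
  simp only [chr, MonoidHom.coe_mk, OneHom.coe_mk, Units.val_mk0, Units.val_one, _root_.one_zpow,
    mul_one, one_mul] at h1 h2
  exact Prod.ext (two_inj h1) (two_inj h2)

theorem mono_li : LinearIndependent ℂ mono :=
  LinearIndependent.of_comp (LinearMap.funLeft ℂ ℂ fun z : Tor => (z, (0 : V2)))
    ((linearIndependent_monoidHom Tor ℂ).comp chr chr_inj)

def reg : Option Bool → ℤ → ℤ → Prop
  | none, _, _ => True
  | some false, _, i => 0 ≤ i
  | some true, p, i => i ≤ p

def Rg (o : Op) (d : ℤ × ℤ) : Set (ℤ × ℤ) := {e | reg o.1 d.1 e.1 ∧ reg o.2 d.2 e.2}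

/-- sections of `O(d)` over the open set `o` -/
noncomputable def O (o : Op) (d : ℤ × ℤ) : Submodule ℂ FF := span ℂ (mono '' Rg o d)

def cho (o : Op) : Ch := (o.1.getD false, o.2.getD false)

def gen (o : Op) (d : ℤ × ℤ) : ℤ × ℤ :=
  (if (cho o).1 then d.1 else 0, if (cho o).2 then d.2 else 0)

def op (a : Ch) : Op := (some a.1, some a.2)

abbrev top : Op := (none, none)

@[simp] theorem cho_op (a : Ch) : cho (op a) = a := rfl

theorem gen_add (o : Op) (d d' : ℤ × ℤ) : gen o (d + d') = gen o d + gen o d' := by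
  unfold gen; ext <;> simp <;> split_ifs <;> simp

theorem gen_zero (o : Op) : gen o 0 = 0 := by simp [gen]

theorem gen_nsmul (o : Op) (k : ℕ) (d : ℤ × ℤ) : gen o (k • d) = k • gen o d := by
  unfold gen; ext <;> simp

theorem gen_neg (o : Op) (d : ℤ × ℤ) : mono (gen o (-d)) * mono (gen o d) = 1 := by
  rw [← mono_add, ← gen_add, neg_add_cancel, gen_zero, mono_zero]

theorem reg_add {o : Option Bool} {p q i j : ℤ} (h : reg o p i) (h' : reg o q j) :
    reg o (p + q) (i + j) := by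
  rcases o with _ | _ | _ <;> simp only [reg] at * <;> omega

theorem mono_mem {o : Op} {d e : ℤ × ℤ} (h : e ∈ Rg o d) : mono e ∈ O o d :=
  subset_span ⟨e, h, rfl⟩

theorem gen_mem (o : Op) (d : ℤ × ℤ) : mono (gen o d) ∈ O o d := by
  refine mono_mem ?_
  rcases o with ⟨_ | _ | _, _ | _ | _⟩ <;> simp [Rg, reg, gen, cho]

theorem gen_mem' (o o' : Op) {d : ℤ × ℤ} (h : 0 ≤ d) : mono (gen o' d) ∈ O o d := by
  have k : ∀ (o : Option Bool) (b : Bool) (p : ℤ), 0 ≤ p → reg o p (if b then p else 0) := by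
    rintro (_ | _ | _) (_ | _) p h <;> simp [reg, h]
  exact mono_mem ⟨k _ _ _ h.1, k _ _ _ h.2⟩

theorem O_mul {o : Op} {d d' : ℤ × ℤ} {f g : FF} (hf : f ∈ O o d) (hg : g ∈ O o d') :
    f * g ∈ O o (d + d') := by
  have : O o d * O o d' ≤ O o (d + d') := by
    rw [O, O, span_mul_span, span_le]
    rintro _ ⟨_, ⟨e, he, rfl⟩, _, ⟨e', he', rfl⟩, rfl⟩
    simp only [← mono_add]
    exact mono_mem ⟨reg_add he.1 he'.1, reg_add he.2 he'.2⟩
  exact this (mul_mem_mul hf hg)

/-- functions on the open set `o` -/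
noncomputable def R (o : Op) : Subalgebra ℂ FF :=
  (O o 0).toSubalgebra (by simpa [gen_zero, mono_zero] using gen_mem o 0)
    fun _ _ hf hg => by simpa using O_mul hf hg

theorem mem_R {o : Op} {f : FF} : f ∈ R o ↔ f ∈ O o 0 := Iff.rfl

/-- `o'` is a smaller open set than `o` -/
def Le (o o' : Op) : Prop := (o'.1 = o.1 ∨ o'.1 = none) ∧ (o'.2 = o.2 ∨ o'.2 = none)

theorem O_mono {o o' : Op} (h : Le o o') (d : ℤ × ℤ) : O o d ≤ O o' d := by
  refine span_mono (Set.image_mono fun e he => ⟨?_, ?_⟩)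
  · rcases h.1 with k | k <;> rw [k]
    exacts [he.1, trivial]
  · rcases h.2 with k | k <;> rw [k]
    exacts [he.2, trivial]

theorem O_base {o : Op} {d : ℤ × ℤ} {f : FF} (h : f ∈ O o d) (z : Tor) (v v' : V2) :
    f (z, v) = f (z, v') := by
  induction h using span_induction with
  | mem _ h => obtain ⟨e, -, rfl⟩ := h; rfl
  | zero => rfl
  | add _ _ _ _ h h' => simp [h, h']
  | smul _ _ _ h => simp [h]

/-- vanishing of the first cohomology -/
def Cc (N : Op → Submodule ℂ FF) : Prop :=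
  ∀ u : Ch → FF, (∀ a, u a ∈ N top) → (∀ i, u (i, false) - u (i, true) ∈ N (some i, none)) →
    (∀ j, u (false, j) - u (true, j) ∈ N (none, some j)) →
    ∃ c ∈ N top, ∀ a, u a - c ∈ N (op a)

theorem mem_O {o : Op} {d : ℤ × ℤ} {l : ℤ × ℤ →₀ ℂ} :
    Finsupp.linearCombination ℂ mono l ∈ O o d ↔ ∀ e, e ∉ Rg o d → l e = 0 := by
  rw [O, Finsupp.mem_span_image_iff_linearCombination]
  constructor
  · rintro ⟨l', h, h'⟩
    rw [← mono_li h']
    exact (Finsupp.mem_supported' ℂ _).1 h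
  · exact fun h => ⟨l, (Finsupp.mem_supported' ℂ _).2 h, rfl⟩

theorem cc_O {d : ℤ × ℤ} (hd : 0 ≤ d) : Cc fun o => O o d := by
  intro u h0 h1 h2
  have hd1 : 0 ≤ d.1 := hd.1
  have hd2 : 0 ≤ d.2 := hd.2
  choose l _ hl using fun a => (Finsupp.mem_span_image_iff_linearCombination ℂ).1 (h0 a)
  simp only [← hl, ← map_sub, mem_O, Finsupp.sub_apply, sub_eq_zero] at h1 h2
  let s : ℤ × ℤ → Ch := fun e => (decide (0 ≤ e.1), decide (0 ≤ e.2))
  let c : ℤ × ℤ →₀ ℂ := ∑ a, (l a).filter fun e => s e = a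
  have hc : ∀ e, c e = l (s e) e := by
    intro e
    simp [c, Finsupp.finsetSum_apply, Finsupp.filter_apply]
  refine ⟨Finsupp.linearCombination ℂ mono c, mem_O.2 fun e he => (he ⟨trivial, trivial⟩).elim,
    fun a => ?_⟩
  rw [← hl, ← map_sub, mem_O]
  intro e he
  rw [Finsupp.sub_apply, hc, sub_eq_zero]
  have k1 := h1 false e
  have k2 := h1 true e
  have k3 := h2 false e
  have k4 := h2 true e
  simp only [Rg, reg, Set.mem_ofPred_eq, and_true, true_and, not_le] at k1 k2 k3 k4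
  rcases a with ⟨_ | _, _ | _⟩ <;> simp only [Rg, reg, op, Set.mem_ofPred_eq, not_and_or,
    not_le] at he <;> by_cases p1 : 0 ≤ e.1 <;> by_cases p2 : 0 ≤ e.2 <;>
    simp only [s, p1, p2, decide_true, decide_false] <;> grind

end Vale.Agent.P296.GG
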