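import Vale.Agent.P296.GG1

/-! Symmetric powers of `G` on the torus and the induction on the degree. -/

namespace Vale.Agent.P296.GG

open Matrix Complex Submodule

abbrev ff : Ch := (false, false)

/-- coordinates of a torus point in chart `a` -/
noncomputable def co (a : Ch) (y : Tor) : ℂ × ℂ :=
  (if a.1 then (y.1 : ℂ)⁻¹ else y.1, if a.2 then (y.2 : ℂ)⁻¹ else y.2)

theorem ch_co (a b : Ch) (y : Tor) : ch a (co a y) = ch b (co b y) := by
  rw [ch_eq_iff]
  rcases a with ⟨_ | _, _ | _⟩ <;> rcases b with ⟨_ | _, _ | _⟩ <;> simp [co]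

/-- coordinates of a covector in the frame of chart `a` -/
noncomputable def cv (a : Ch) (w : Tor × V2) : V2 := w.2 ᵥ* gG ff a (co ff w.1)

theorem cv_cv (a b : Ch) (w : Tor × V2) : cv b w = cv a w ᵥ* gG a b (co a w.1) := by
  rw [cv, cv, vecMul_vecMul, gG_co (ch_co _ _ _) (ch_co _ _ _)]

theorem cv_ff (w : Tor × V2) : cv ff w = w.2 := by rw [cv, gG_refl, vecMul_one]

noncomputable def AA (a : Ch) : FF := fun w => cv a w 0
noncomputable def BB (a : Ch) : FF := fun w => cv a w 1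

/-- sections of `G` over the open set `o` -/
def L (o : Op) : Submodule ℂ FF where
  carrier := {l | ∃ r ∈ R o, ∃ s ∈ R o, l = r * AA (cho o) + s * BB (cho o)}
  add_mem' := by
    rintro _ _ ⟨r, hr, s, hs, rfl⟩ ⟨r', hr', s', hs', rfl⟩
    exact ⟨_, add_mem hr hr', _, add_mem hs hs', by ring⟩
  zero_mem' := ⟨0, zero_mem _, 0, zero_mem _, by ring⟩
  smul_mem' := by
    rintro c _ ⟨r, hr, s, hs, rfl⟩
    exact ⟨_, (R o).smul_mem hr c, _, (R o).smul_mem hs c, by simp⟩

theorem L_mk {o : Op} {r s : FF} (hr : r ∈ R o) (hs : s ∈ R o) :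
    r * AA (cho o) + s * BB (cho o) ∈ L o := ⟨r, hr, s, hs, rfl⟩

theorem L_mul {o : Op} {r l : FF} (hr : r ∈ R o) (hl : l ∈ L o) : r * l ∈ L o := by
  obtain ⟨r', hr', s, hs, rfl⟩ := hl
  exact ⟨_, mul_mem hr hr', _, mul_mem hr hs, by ring⟩

section Pol
variable {S : Subalgebra ℂ FF} {f g k l : FF}

theorem p_c (c : ℂ) : (fun _ => c) ∈ S := S.algebraMap_mem c
theorem p_add (hf : f ∈ S) (hg : g ∈ S) : (fun w => f w + g w) ∈ S := add_mem hf hg
theorem p_sub (hf : f ∈ S) (hg : g ∈ S) : (fun w => f w - g w) ∈ S := sub_mem hf hg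
theorem p_mul (hf : f ∈ S) (hg : g ∈ S) : (fun w => f w * g w) ∈ S := mul_mem hf hg
theorem p_neg (hf : f ∈ S) : (fun w => -f w) ∈ S := neg_mem hf
theorem p_pow (hf : f ∈ S) (n : ℕ) : (fun w => f w ^ n) ∈ S := pow_mem hf n

theorem p_kh (hf : f ∈ S) (hg : g ∈ S) (hk : k ∈ S) : (fun w => kh (f w) (g w) (k w)) ∈ S := by
  unfold kh
  repeat' first | assumption | apply p_c | apply p_add | apply p_pow | apply p_mul

theorem p_T (i : Bool) (hf : f ∈ S) (hg : g ∈ S) (hk : k ∈ S) :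
    (fun w => (if i then T1 else T0) (f w) (g w) (k w)) ∈ S := by
  cases i <;> simp only [Bool.false_eq_true, if_true, if_false, T0, T1] <;>
  repeat' first | assumption | apply p_c | apply p_add | apply p_pow | apply p_mul

theorem p_S (i : Bool) (hf : f ∈ S) (hg : g ∈ S) (hk : k ∈ S) :
    (fun w => (if i then S1 else S0) (f w) (g w) (k w)) ∈ S := by
  cases i <;> simp only [Bool.false_eq_true, if_true, if_false, S0, S1] <;>
  repeat' first | assumption | apply p_c | apply p_add | apply p_pow | apply p_mul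

theorem p_R (i j : Bool) (hf : f ∈ S) (hg : g ∈ S) :
    (fun w => (if i then if j then R11 else R10 else if j then R01 else R00) (f w) (g w)) ∈ S := by
  cases i <;> cases j <;> simp only [Bool.false_eq_true, if_true, if_false, R00, R01, R10, R11] <;>
  repeat' first | assumption | apply p_c | apply p_add | apply p_pow | apply p_mul

theorem p_F (hf : f ∈ S) (hg : g ∈ S) (hk : k ∈ S) (hl : l ∈ S) :
    (fun w => Fh (f w) (g w) (k w) (l w)) ∈ S := by
  unfold Fh
  repeat' first | assumption | apply p_c | apply p_add | apply p_sub | apply p_mul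

theorem p_c0 (b : Bool) (hf : f ∈ S) : (fun w => c0 b (f w)) ∈ S := by
  cases b
  exacts [hf, p_c 1]

theorem p_c1 (b : Bool) (hf : f ∈ S) : (fun w => c1 b (f w)) ∈ S := by
  cases b
  exacts [p_c 1, hf]

theorem p_sw (b b' : Bool) (hf : f ∈ S) : (fun w => sw b b' (f w)) ∈ S := by
  unfold sw; split_ifs
  exacts [p_c 1, hf]

end Pol

theorem x_mem (o : Op) : (fun w => (co (cho o) w.1).1) ∈ R o := by
  have : (fun w => (co (cho o) w.1).1) = mono (if (cho o).1 then -1 else 1, 0) := by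
    ext w; simp only [co, mono]; split_ifs <;> simp
  rw [this]
  refine mono_mem ?_
  rcases o with ⟨_ | _ | _, _ | _ | _⟩ <;> simp [Rg, reg, cho]

theorem y_mem (o : Op) : (fun w => (co (cho o) w.1).2) ∈ R o := by
  have : (fun w => (co (cho o) w.1).2) = mono (0, if (cho o).2 then -1 else 1) := by
    ext w; simp only [co, mono]; split_ifs <;> simp
  rw [this]
  refine mono_mem ?_
  rcases o with ⟨_ | _ | _, _ | _ | _⟩ <;> simp [Rg, reg, cho]

theorem xi_mem {o : Op} (h : o.1 = none) : (fun w => (co (cho o) w.1).1⁻¹) ∈ R o := by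
  have : (fun w => (co (cho o) w.1).1⁻¹) = mono (-1, 0) := by
    ext w; simp [co, mono, cho, h]
  rw [this]
  refine mono_mem ?_
  rcases o with ⟨_ | _ | _, _ | _ | _⟩ <;> simp_all [Rg, reg]

theorem L_mono {o o' : Op} (h : Le o o') : L o ≤ L o' := by
  rintro _ ⟨r, hr, s, hs, rfl⟩
  have hx := x_mem o'
  have hy := y_mem o'
  have h1 : (fun w => gc (cho o') (cho o) (co (cho o') w.1)) ∈ R o' ∧
      (fun w => (sw (cho o').1 (cho o).1 (co (cho o') w.1).1)⁻¹) ∈ R o' := by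
    by_cases k : (cho o).1 = (cho o').1
    · simp only [gc, sw, k, if_true]
      exact ⟨p_c _, p_c _⟩
    · have k1 : o'.1 = none := h.1.resolve_left fun k1 => k (by simp [cho, k1])
      have k2 : (cho o').1 = false := by simp [cho, k1]
      have hi := xi_mem k1
      rw [k2] at k
      simp only [gc, sw, k, k2, if_false, Bool.false_eq_true, kap]
      exact ⟨p_mul (p_pow hi 2) (p_kh hx (p_c0 _ hy) (p_c1 _ hy)), hi⟩
  refine add_mem (L_mul (O_mono h 0 hr) ?_) (L_mul (O_mono h 0 hs) ?_)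
  · refine ⟨_, p_pow (p_sw (cho o').1 (cho o).1 hx) 6, _, h1.1, ?_⟩
    ext w
    simp [AA, BB, cv_cv (cho o') (cho o), gG, vecMul, dotProduct, Fin.sum_univ_two, mul_comm]
  · refine ⟨0, zero_mem _, _, p_mul (p_pow h1.2 3) (p_pow (p_sw (cho o').2 (cho o).2 hy) 3), ?_⟩
    ext w
    simp [BB, cv_cv (cho o') (cho o), gG, vecMul, dotProduct, Fin.sum_univ_two, mul_comm]

/-- sections of `Sym^k G (d)` over the open set `o` -/
noncomputable def M (o : Op) : ℕ → ℤ × ℤ → Submodule ℂ FF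
  | 0, d => O o d
  | k + 1, d => M o k d * L o

theorem M_mono {o o' : Op} (h : Le o o') (k : ℕ) (d : ℤ × ℤ) : M o k d ≤ M o' k d := by
  induction k with
  | zero => exact O_mono h d
  | succ k ih => exact mul_le_mul' ih (L_mono h)

theorem M_top (k : ℕ) (d d' : ℤ × ℤ) : M top k d = M top k d' := by
  induction k with
  | zero => rfl
  | succ k ih => rw [M, M, ih]

theorem M_mul_O {o : Op} {k : ℕ} {d d' : ℤ × ℤ} {x r : FF} (hx : x ∈ M o k d)
    (hr : r ∈ O o d') : x * r ∈ M o k (d + d') := by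
  induction k generalizing x with
  | zero => exact O_mul hx hr
  | succ k ih =>
    refine Submodule.mul_induction_on hx (fun x hx l hl => ?_) fun x y hx hy => ?_
    · rw [mul_right_comm]; exact mul_mem_mul (ih hx) hl
    · rw [add_mul]; exact add_mem hx hy

theorem M_mul_L {o : Op} {k : ℕ} {d : ℤ × ℤ} {x l : FF} (hx : x ∈ M o k d) (hl : l ∈ L o) :
    x * l ∈ M o (k + 1) d := mul_mem_mul hx hl

theorem M_pow {o : Op} {d : ℤ × ℤ} {c l : FF} (hc : c ∈ O o d) (hl : l ∈ L o) (k : ℕ) :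
    c * l ^ k ∈ M o k d := by
  induction k with
  | zero => simpa [M] using hc
  | succ k ih => rw [pow_succ, ← mul_assoc]; exact M_mul_L ih hl

theorem O_cont {o : Op} {d : ℤ × ℤ} {f : FF} (h : f ∈ O o d) (z : Tor) :
    Continuous fun v => f (z, v) := by
  simp only [fun v => O_base h z v 0]; exact continuous_const

theorem M_cont {o : Op} {k : ℕ} {d : ℤ × ℤ} {f : FF} (h : f ∈ M o k d) (z : Tor) :
    Continuous fun v => f (z, v) := by
  induction k generalizing f with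
  | zero => exact O_cont h z
  | succ k ih =>
    refine Submodule.mul_induction_on h (fun x hx l hl => ?_) fun x y hx hy => hx.add hy
    obtain ⟨r, hr, s, hs, rfl⟩ := hl
    have h1 := ih hx
    have h2 := O_cont hr z
    have h3 := O_cont hs z
    have h4 : ∀ i, Continuous fun v => cv (cho o) (z, v) i := fun i => by
      simp only [cv, vecMul, dotProduct, Fin.sum_univ_two]
      exact ((continuous_apply 0).mul continuous_const).add
        ((continuous_apply 1).mul continuous_const)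
    exact h1.mul ((h2.mul (h4 0)).add (h3.mul (h4 1)))

/-- a line subbundle of `G` with line bundle quotient -/
structure Frame where
  e : Tor → V2
  b : FF
  a : Ch → FF
  db : ℤ × ℤ
  da : ℤ × ℤ
  b_e : ∀ z, b (z, e z) = 0
  a_e : ∀ o z v, a (cho o) (z, e z) = mono (gen o da) (z, v)
  a_mem : ∀ o, a (cho o) ∈ L o
  b_mem : ∀ o, mono (gen o db) * b ∈ L o
  dec : ∀ o, ∀ l ∈ L o, ∃ r ∈ O o 0, ∃ s ∈ O o db, l = r * a (cho o) + s * b
  lin : ∀ z, ∃ v₀, ∀ v (t : ℂ), b (z, v + t • v₀) = b (z, v) + t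

namespace Frame
variable (φ : Frame) {o : Op} {k : ℕ} {d : ℤ × ℤ}

/-- restriction to the section -/
def ev (f : FF) : FF := fun w => f (w.1, φ.e w.1)

theorem ev_mul (f g : FF) : φ.ev (f * g) = φ.ev f * φ.ev g := rfl
theorem ev_add (f g : FF) : φ.ev (f + g) = φ.ev f + φ.ev g := rfl
theorem ev_sub (f g : FF) : φ.ev (f - g) = φ.ev f - φ.ev g := rfl
theorem ev_pow (f : FF) (k : ℕ) : φ.ev (f ^ k) = φ.ev f ^ k := rfl
theorem ev_b : φ.ev φ.b = 0 := funext fun _ => φ.b_e _
theorem ev_a (o : Op) : φ.ev (φ.a (cho o)) = mono (gen o φ.da) := funext fun _ => φ.a_e _ _ _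
theorem ev_O {f : FF} (h : f ∈ O o d) : φ.ev f = f := funext fun _ => O_base h _ _ _

theorem canc {g : FF} (hg : g ∈ M o k d) (h : φ.b * g = 0) : g = 0 := by
  ext ⟨z, v⟩
  obtain ⟨v₀, h₀⟩ := φ.lin z
  have hc : Continuous fun t : ℂ => g (z, v + t • v₀) :=
    (M_cont hg z).comp (f := fun t : ℂ => v + t • v₀) (by fun_prop)
  have := congrFun (hc.ext_on (dense_compl_singleton (-φ.b (z, v))) continuous_const
    (g := fun _ => 0) fun t ht => (mul_eq_zero.1 (congrFun h (z, v + t • v₀))).resolve_left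
      (by rw [h₀]; exact fun k => ht (eq_neg_of_add_eq_zero_right k))) 0
  simpa using this

theorem split {f : FF} (h : f ∈ M o (k + 1) d) :
    ∃ c ∈ O o d, ∃ g ∈ M o k (d + φ.db), f = c * φ.a (cho o) ^ (k + 1) + φ.b * g := by
  induction k generalizing f with
  | zero =>
    refine Submodule.mul_induction_on h (fun x hx l hl => ?_) ?_
    · obtain ⟨r, hr, s, hs, rfl⟩ := φ.dec o l hl
      exact ⟨_, by simpa using O_mul hx hr, _, M_mul_O hx hs, by ring⟩
    · rintro _ _ ⟨c, hc, g, hg, rfl⟩ ⟨c', hc', g', hg', rfl⟩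
      exact ⟨_, add_mem hc hc', _, add_mem hg hg', by ring⟩
  | succ k ih =>
    refine Submodule.mul_induction_on h (fun x hx l hl => ?_) ?_
    · obtain ⟨r, hr, s, hs, rfl⟩ := φ.dec o l hl
      obtain ⟨c, hc, g, hg, e⟩ := ih (f := x * r) (by simpa using M_mul_O hx hr)
      exact ⟨c, hc, _, add_mem (M_mul_L hg (φ.a_mem o)) (M_mul_O hx hs), by
        linear_combination φ.a (cho o) * e⟩
    · rintro _ _ ⟨c, hc, g, hg, rfl⟩ ⟨c', hc', g', hg', rfl⟩
      exact ⟨_, add_mem hc hc', _, add_mem hg hg', by ring⟩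

theorem ker {f : FF} (h : f ∈ M o (k + 1) d) (h0 : φ.ev f = 0) :
    ∃ g ∈ M o k (d + φ.db), f = φ.b * g := by
  obtain ⟨c, hc, g, hg, rfl⟩ := φ.split h
  rw [ev_add, ev_mul, ev_mul, ev_b, ev_pow, ev_a, φ.ev_O hc, zero_mul, add_zero] at h0
  have : c = 0 := funext fun w =>
    (mul_eq_zero.1 (congrFun h0 w)).resolve_right (pow_ne_zero _ (mono_ne _ _))
  exact ⟨g, hg, by rw [this, zero_mul, zero_add]⟩

theorem ev_mem {f : FF} (h : f ∈ M o (k + 1) d) : φ.ev f ∈ O o (d + (k + 1) • φ.da) := by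
  obtain ⟨c, hc, g, hg, rfl⟩ := φ.split h
  rw [ev_add, ev_mul, ev_mul, ev_b, ev_pow, ev_a, φ.ev_O hc, zero_mul, add_zero, ← mono_nsmul,
    ← gen_nsmul]
  exact O_mul hc (gen_mem _ _)

theorem lift {c : FF} (h : c ∈ O o (d + k • φ.da)) : ∃ f ∈ M o k d, φ.ev f = c := by
  have h1 := O_mul h (gen_mem o (-(k • φ.da)))
  rw [add_neg_cancel_right] at h1
  refine ⟨_, M_pow h1 (φ.a_mem o) k, ?_⟩
  rw [ev_mul, ev_pow, ev_a, φ.ev_O h1, ← mono_nsmul, ← gen_nsmul, mul_assoc, gen_neg, mul_one]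

theorem b_mul {g : FF} (h : g ∈ M o k (d + φ.db)) : φ.b * g ∈ M o (k + 1) d := by
  have h1 := M_mul_L (M_mul_O h (gen_mem o (-φ.db))) (φ.b_mem o)
  rw [add_neg_cancel_right, mul_assoc, ← mul_assoc (mono _), gen_neg, one_mul, mul_comm] at h1
  exact h1

theorem glue (H : Cc fun o => M o k (d + φ.db)) (u : Ch → FF) (h0 : ∀ a, u a ∈ M top (k + 1) d)
    (h1 : ∀ i, u (i, false) - u (i, true) ∈ M (some i, none) (k + 1) d)
    (h2 : ∀ j, u (false, j) - u (true, j) ∈ M (none, some j) (k + 1) d) {c : FF}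
    (hc : ∀ a, φ.ev (u a) = c) :
    ∃ S ∈ M top (k + 1) d, (∀ a, u a - S ∈ M (op a) (k + 1) d) ∧ φ.ev S = c := by
  choose g hg e using fun a => φ.ker (sub_mem (h0 a) (h0 ff)) (by rw [ev_sub, hc, hc, sub_self])
  have key : ∀ {o : Op} {a a' : Ch}, u a - u a' ∈ M o (k + 1) d →
      g a - g a' ∈ M o k (d + φ.db) := by
    intro o a a' h
    obtain ⟨g', hg', e'⟩ := φ.ker h (by rw [ev_sub, hc, hc, sub_self])
    have := φ.canc (sub_mem (sub_mem (hg a) (hg a')) (M_mono ⟨.inr rfl, .inr rfl⟩ _ _ hg'))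
      (by linear_combination e a' - e a + e')
    rwa [sub_eq_zero.1 this]
  obtain ⟨c', hc', H'⟩ := H g hg (fun i => key (h1 i)) fun j => key (h2 j)
  refine ⟨u ff + φ.b * c', add_mem (h0 _) (φ.b_mul hc'), fun a => ?_, ?_⟩
  · have : u a - (u ff + φ.b * c') = φ.b * (g a - c') := by linear_combination e a
    rw [this]; exact φ.b_mul (H' a)
  · rw [ev_add, ev_mul, ev_b, zero_mul, add_zero, hc]

theorem step (H : Cc fun o => M o k (d + φ.db)) (H0 : Cc fun o => O o (d + (k + 1) • φ.da)) :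
    Cc fun o => M o (k + 1) d := by
  intro u h0 h1 h2
  obtain ⟨c, -, hc⟩ := H0 (fun a => φ.ev (u a)) (fun a => φ.ev_mem (h0 a))
    (fun i => φ.ev_mem (h1 i)) fun j => φ.ev_mem (h2 j)
  choose w hw e using fun a => φ.lift (hc a)
  have k1 : ∀ {o : Op} {a a' : Ch}, Le (op a) o → Le (op a') o → u a - u a' ∈ M o (k + 1) d →
      (u a - w a) - (u a' - w a') ∈ M o (k + 1) d := by
    intro o a a' l l' h
    have : (u a - w a) - (u a' - w a') = u a - u a' - w a + w a' := by ring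
    rw [this]
    exact add_mem (sub_mem h (M_mono l _ _ (hw a))) (M_mono l' _ _ (hw a'))
  obtain ⟨S, hS, H', -⟩ := φ.glue H (fun a => u a - w a)
    (fun a => sub_mem (h0 a) (M_mono ⟨.inr rfl, .inr rfl⟩ _ _ (hw a)))
    (fun i => k1 ⟨.inl rfl, .inr rfl⟩ ⟨.inl rfl, .inr rfl⟩ (h1 i))
    (fun j => k1 ⟨.inr rfl, .inl rfl⟩ ⟨.inr rfl, .inl rfl⟩ (h2 j)) (c := c)
    fun a => by rw [ev_sub, e, sub_sub_cancel]
  refine ⟨S, hS, fun a => ?_⟩
  have : u a - S = u a - w a - S + w a := by ring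
  rw [this]; exact add_mem (H' a) (hw a)

theorem surj (H : Cc fun o => M o k (d + φ.db)) {c : FF}
    (hc : ∀ a, c ∈ O (op a) (d + (k + 1) • φ.da)) :
    ∃ S, (∀ a, S ∈ M (op a) (k + 1) d) ∧ φ.ev S = c := by
  choose u hu e using fun a => φ.lift (hc a)
  have k1 : ∀ {o : Op} {a a' : Ch}, Le (op a) o → Le (op a') o →
      u a - u a' ∈ M o (k + 1) d := fun l l' =>
    sub_mem (M_mono l _ _ (hu _)) (M_mono l' _ _ (hu _))
  obtain ⟨S, -, H', e'⟩ := φ.glue H u (fun a => M_mono ⟨.inr rfl, .inr rfl⟩ _ _ (hu a))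
    (fun i => k1 ⟨.inl rfl, .inr rfl⟩ ⟨.inl rfl, .inr rfl⟩)
    (fun j => k1 ⟨.inr rfl, .inl rfl⟩ ⟨.inr rfl, .inl rfl⟩) e
  exact ⟨S, fun a => by simpa using sub_mem (hu a) (H' a), e'⟩

end Frame

end Vale.Agent.P296.GG
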