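import Vale.Agent.P296.GG2

/-! The two line subbundles, extension of sections to the charts, and global generation. -/

namespace Vale.Agent.P296.GG

open Matrix Complex Submodule Filter Topology

theorem mono_gen (o : Op) (d : ℤ × ℤ) (w : Tor × V2) : mono (gen o d) w =
    sw false (cho o).1 (co ff w.1).1 ^ d.1 * sw false (cho o).2 (co ff w.1).2 ^ d.2 := by
  simp only [mono, gen, sw, co]
  cases (cho o).1 <;> cases (cho o).2 <;> simp

theorem sw1_ne (b : Bool) (y : Tor) : sw false b (co ff y).1 ≠ 0 := by cases b <;> simp [sw, co]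
theorem sw2_ne (b : Bool) (y : Tor) : sw false b (co ff y).2 ≠ 0 := by cases b <;> simp [sw, co]

theorem F_mem (o : Op) : (fun w => FC (cho o) (co (cho o) w.1)) ∈ R o :=
  p_F (p_c0 _ (x_mem o)) (p_c1 _ (x_mem o)) (p_c0 _ (y_mem o)) (p_c1 _ (y_mem o))
theorem T_mem (o : Op) : (fun w => TC (cho o) (co (cho o) w.1)) ∈ R o :=
  p_T _ (x_mem o) (p_c0 _ (y_mem o)) (p_c1 _ (y_mem o))
theorem S_mem (o : Op) : (fun w => SC (cho o) (co (cho o) w.1)) ∈ R o :=
  p_S _ (p_c0 _ (x_mem o)) (p_c1 _ (x_mem o)) (y_mem o)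
theorem R_mem (o : Op) : (fun w => RC (cho o) (co (cho o) w.1)) ∈ R o :=
  p_R _ _ (x_mem o) (y_mem o)

theorem cv0 (a : Ch) (w : Tor × V2) :
    cv a w 0 = w.2 0 * sw false a.1 (co ff w.1).1 ^ 6 + w.2 1 * gc ff a (co ff w.1) := by
  simp [cv, gG, vecMul, dotProduct, Fin.sum_univ_two]

theorem cv1 (a : Ch) (w : Tor × V2) :
    cv a w 1 = w.2 1 * ((sw false a.1 (co ff w.1).1)⁻¹ ^ 3 * sw false a.2 (co ff w.1).2 ^ 3) := by
  simp [cv, gG, vecMul, dotProduct, Fin.sum_univ_two]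

theorem B_eq (o : Op) : mono (gen o (-3, 3)) * (fun w : Tor × V2 => w.2 1) = BB (cho o) := by
  ext w
  simp only [Pi.mul_apply, mono_gen, BB, cv1, _root_.zpow_neg, zpow_ofNat, inv_pow]
  ring

/-- the second line subbundle -/
noncomputable def bq (a : Ch) (z : ℂ × ℂ) (v : V2) : ℂ := FC a z * v 0 - TC a z * v 1

theorem B'_eq (o : Op) : mono (gen o (3, -3)) * (fun w : Tor × V2 => bq ff (co ff w.1) w.2) =
    fun w => bq (cho o) (co (cho o) w.1) (cv (cho o) w) := by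
  ext w
  have h1 := TC_sw (ch_co ff (cho o) w.1)
  have h2 := FC_sw (ch_co ff (cho o) w.1)
  have h3 := sw1_ne (cho o).1 w.1
  have h4 := sw2_ne (cho o).2 w.1
  simp only [Pi.mul_apply, mono_gen, bq, cv0, cv1, _root_.zpow_neg, zpow_ofNat, chi] at *
  rw [h2] at h1 ⊢
  generalize sw false (cho o).1 (co ff w.1).1 = x at *
  generalize sw false (cho o).2 (co ff w.1).2 = y at *
  field_simp
  linear_combination (-w.2 1) * h1

noncomputable def fB : Frame where
  e _ := ![1, 0]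
  b w := w.2 1
  a := AA
  db := (-3, 3)
  da := (6, 0)
  b_e _ := rfl
  a_e o z v := by simp [AA, cv0, mono_gen]
  a_mem o := by simpa using L_mk (one_mem (R o)) (zero_mem (R o))
  b_mem o := by rw [B_eq]; simpa using L_mk (zero_mem (R o)) (one_mem (R o))
  dec o := by
    rintro _ ⟨r, hr, s, hs, rfl⟩
    exact ⟨r, hr, _, by simpa using O_mul hs (gen_mem o (-3, 3)), by rw [← B_eq, mul_assoc]⟩
  lin _ := ⟨![0, 1], fun v t => by simp⟩

noncomputable def fB' : Frame where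
  e z := ![TC ff (co ff z), FC ff (co ff z)]
  b w := bq ff (co ff w.1) w.2
  a a w := SC a (co a w.1) * cv a w 0 + RC a (co a w.1) * cv a w 1
  db := (3, -3)
  da := (0, 6)
  b_e _ := by simp [bq, mul_comm]
  a_e o z v := by
    have := bez (cho o) (co (cho o) z)
    simp only [cv, e1_gG (ch_co ff (cho o) z), mono_gen]
    simp
    linear_combination sw false (cho o).2 (co ff z).2 ^ 6 * this
  a_mem o := L_mk (S_mem o) (R_mem o)
  b_mem o := by
    rw [B'_eq]
    exact ⟨_, F_mem o, _, neg_mem (T_mem o), by ext w; simp [bq, AA, BB, sub_eq_add_neg]⟩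
  dec o := by
    rintro _ ⟨r, hr, s, hs, rfl⟩
    refine ⟨_, mem_R.1 (add_mem (mul_mem hr (T_mem o)) (mul_mem hs (F_mem o))), _, by
      simpa using O_mul (mem_R.1 (sub_mem (mul_mem hr (R_mem o)) (mul_mem hs (S_mem o))))
        (gen_mem o (3, -3)), ?_⟩
    rw [mul_assoc, B'_eq]
    ext w
    have := bez (cho o) (co (cho o) w.1)
    simp only [Pi.add_apply, Pi.mul_apply, Pi.sub_apply, AA, BB, bq]
    linear_combination -(r w * cv (cho o) w 0 + s w * cv (cho o) w 1) * this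
  lin z := ⟨![RC ff (co ff z), -SC ff (co ff z)], fun v t => by
    have := bez ff (co ff z)
    simp [bq]
    linear_combination t * this⟩

theorem cc_M (k : ℕ) (d : ℤ × ℤ) (h1 : 0 ≤ d.1) (h2 : 0 ≤ d.2) (h : 6 ≤ d.1 + d.2) :
    Cc fun o => M o k d := by
  induction k generalizing d with
  | zero => exact cc_O ⟨h1, h2⟩
  | succ k ih =>
    by_cases c : 3 ≤ d.1
    · refine fB.step (ih _ ?_ ?_ ?_) (cc_O ⟨?_, ?_⟩) <;> simp [fB] <;> omega
    · refine fB'.step (ih _ ?_ ?_ ?_) (cc_O ⟨?_, ?_⟩) <;> simp [fB'] <;> omega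

/-- functions on the torus which extend to chart `a` -/
def X (a : Ch) (k : ℕ) (d : ℤ × ℤ) : Submodule ℂ FF where
  carrier := {f | ∃ Φ : (ℂ × ℂ) × V2 → ℂ, Differentiable ℂ Φ ∧
    (∀ z v (c : ℂ), Φ (z, c • v) = c ^ k * Φ (z, v)) ∧
    ∀ w, f w = mono (gen (op a) d) w * Φ (co a w.1, cv a w)}
  add_mem' := by
    rintro f g ⟨Φ, h1, h2, h3⟩ ⟨Ψ, k1, k2, k3⟩
    exact ⟨Φ + Ψ, h1.add k1, fun z v c => by simp [h2, k2, mul_add],
      fun w => by simp [h3, k3, mul_add]⟩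
  zero_mem' := ⟨0, differentiable_const _, by simp, by simp⟩
  smul_mem' := by
    rintro c f ⟨Φ, h1, h2, h3⟩
    exact ⟨c • Φ, h1.const_smul c, fun z v c => by simp [h2]; ring,
      fun w => by simp [h3]; ring⟩

theorem X_mul {a : Ch} {k k' : ℕ} {d d' : ℤ × ℤ} {f g : FF} (hf : f ∈ X a k d)
    (hg : g ∈ X a k' d') : f * g ∈ X a (k + k') (d + d') := by
  obtain ⟨Φ, h1, h2, h3⟩ := hf
  obtain ⟨Ψ, k1, k2, k3⟩ := hg
  exact ⟨Φ * Ψ, h1.mul k1, fun z v c => by simp [h2, k2]; ring,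
    fun w => by simp [h3, k3, gen_add, mono_add]; ring⟩

theorem pow_aux (b : Bool) {p i : ℤ} (h : reg (some b) p i) {x : ℂ} (hx : x ≠ 0) :
    x ^ i = x ^ (if b then p else 0) *
      (if b then x⁻¹ else x) ^ (if b then p - i else i).toNat := by
  cases b
  · simp only [reg] at h
    simp [← zpow_natCast, Int.toNat_of_nonneg h]
  · simp only [reg] at h
    simp only [if_true, ← zpow_natCast, Int.toNat_of_nonneg (sub_nonneg.2 h), _root_.inv_zpow',
      ← zpow_add₀ hx]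
    congr 1; ring

theorem O_X (a : Ch) (d : ℤ × ℤ) : O (op a) d ≤ X a 0 d := by
  rw [O, span_le]
  rintro _ ⟨e, he, rfl⟩
  refine ⟨fun w => w.1.1 ^ (if a.1 then d.1 - e.1 else e.1).toNat *
    w.1.2 ^ (if a.2 then d.2 - e.2 else e.2).toNat, by fun_prop, by simp, fun w => ?_⟩
  simp only [mono, gen, cho_op, co]
  rw [pow_aux a.1 he.1 (Units.ne_zero _), pow_aux a.2 he.2 (Units.ne_zero _)]
  exact mul_mul_mul_comm _ _ _ _

theorem L_X (a : Ch) : L (op a) ≤ X a 1 0 := by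
  rintro _ ⟨r, hr, s, hs, rfl⟩
  have k : ∀ i : Fin 2, (fun w => cv a w i) ∈ X a 1 0 := fun i =>
    ⟨fun w => w.2 i, by fun_prop, by simp, by simp [gen_zero, mono_zero]⟩
  have k1 := X_mul (O_X a 0 hr) (k 0)
  have k2 := X_mul (O_X a 0 hs) (k 1)
  rw [zero_add, zero_add] at k1 k2
  exact add_mem k1 k2

theorem M_X (a : Ch) (k : ℕ) (d : ℤ × ℤ) : M (op a) k d ≤ X a k d := by
  induction k with
  | zero => exact O_X a d
  | succ k ih =>
    exact Submodule.mul_le.2 fun x hx l hl => by simpa using X_mul (ih hx) (L_X a hl)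

theorem dens {f g : ℂ × ℂ → ℂ} {z : ℂ × ℂ} (hf : ContinuousAt f z) (hg : ContinuousAt g z)
    (h : ∀ y : ℂ × ℂ, y.1 ≠ 0 → y.2 ≠ 0 → f y = g y) : f z = g z := by
  have hd : Dense (({0}ᶜ : Set ℂ) ×ˢ ({0}ᶜ : Set ℂ)) :=
    (dense_compl_singleton 0).prod (dense_compl_singleton 0)
  have := mem_closure_iff_nhdsWithin_neBot.1 (hd z)
  refine tendsto_nhds_unique_of_eventuallyEq (l := 𝓝[({0}ᶜ : Set ℂ) ×ˢ ({0}ᶜ : Set ℂ)] z)
    (hf.tendsto.mono_left nhdsWithin_le_nhds) (hg.tendsto.mono_left nhdsWithin_le_nhds) ?_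
  filter_upwards [self_mem_nhdsWithin] with y hy using h y hy.1 hy.2

theorem exists_co (a : Ch) {z : ℂ × ℂ} (h1 : z.1 ≠ 0) (h2 : z.2 ≠ 0) (v : V2) :
    ∃ w : Tor × V2, co a w.1 = z ∧ cv a w = v := by
  obtain ⟨y, rfl⟩ : ∃ y, co a y = z :=
    ⟨(if a.1 then (Units.mk0 _ h1)⁻¹ else Units.mk0 _ h1,
      if a.2 then (Units.mk0 _ h2)⁻¹ else Units.mk0 _ h2), by
      rcases a with ⟨_ | _, _ | _⟩ <;> simp [co]⟩
  refine ⟨(y, v ᵥ* gG a ff (co a y)), rfl, ?_⟩
  rw [cv, vecMul_vecMul, gG_co (ch_co _ _ _) rfl, gG_refl, vecMul_one]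

theorem mono33 (a : Ch) (w : Tor × V2) :
    mono (gen (op a) (3, 3)) w = chi ff a (co ff w.1) ^ 3 := by
  simp [mono_gen, chi, mul_pow]

/-- the coordinate change -/
noncomputable def tr (a b : Ch) (z : ℂ × ℂ) : ℂ × ℂ :=
  (if b.1 = a.1 then z.1 else z.1⁻¹, if b.2 = a.2 then z.2 else z.2⁻¹)

theorem tr_aux {i i' : Bool} {t t' : ℂ} (h : (i' = i ∧ t' = t) ∨ (i' = !i ∧ t * t' = 1)) :
    t' = (if i' = i then t else t⁻¹) ∧
      ContinuousAt (fun s : ℂ => if i' = i then s else s⁻¹) t := by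
  rcases h with ⟨rfl, rfl⟩ | ⟨rfl, k⟩
  · simp only [if_true]
    exact ⟨trivial, continuousAt_id⟩
  · simp only [Bool.not_eq_self, if_false]
    exact ⟨eq_inv_of_mul_eq_one_right k, continuousAt_inv₀ (left_ne_zero_of_mul_eq_one k)⟩

theorem tr_eq {a b : Ch} {z z' : ℂ × ℂ} (h : ch a z = ch b z') :
    z' = tr a b z ∧ ContinuousAt (tr a b) z := by
  rw [ch_eq_iff] at h
  exact ⟨Prod.ext (tr_aux h.1).1 (tr_aux h.2).1,
    ((tr_aux h.1).2.comp continuousAt_fst).prodMk ((tr_aux h.2).2.comp continuousAt_snd)⟩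

theorem extend {k : ℕ} {S : FF} (h : ∀ a, S ∈ M (op a) k (3, 3)) :
    ∃ Φ, GSec k Φ ∧ ∀ a w, S w = chi ff a (co ff w.1) ^ 3 * Φ a (co a w.1, cv a w) := by
  choose Φ h1 h2 h3 using fun a => M_X a k _ (h a)
  simp only [mono33] at h3
  refine ⟨Φ, ⟨h1, h2, fun a b z z' v hz => ?_⟩, h3⟩
  obtain ⟨rfl, hc⟩ := tr_eq hz
  have c1 : ContinuousAt (fun y => chi a b y) z := by
    unfold chi sw; split_ifs <;> fun_prop
  have c2 : ContinuousAt (fun y => v ᵥ* gG a b y) z := by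
    refine continuousAt_pi.2 fun j => ?_
    simp only [vecMul, dotProduct, Fin.sum_univ_two]
    exact (continuousAt_const.mul (gG_diff hz 0 j).continuousAt).add
      (continuousAt_const.mul (gG_diff hz 1 j).continuousAt)
  refine dens (f := fun y => Φ a (y, v)) (g := fun y => chi a b y ^ 3 * Φ b (tr a b y, v ᵥ* gG a b y))
    ((h1 a).continuous.continuousAt.comp (by fun_prop))
    ((c1.pow 3).mul ((h1 b).continuous.continuousAt.comp (hc.prodMk c2))) fun y y1 y2 => ?_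
  obtain ⟨w, rfl, rfl⟩ := exists_co a y1 y2 v
  have e := (h3 a w).symm.trans (h3 b w)
  rw [← chi_co (ch_co ff a w.1) (ch_co ff b w.1), mul_pow, mul_assoc,
    mul_right_inj' (pow_ne_zero _ (chi_ne (ch_co ff a w.1)))] at e
  rw [e, ← (tr_eq (ch_co a b w.1)).1, ← cv_cv]

theorem FC_cont (a : Ch) : Continuous (FC a) := by
  unfold FC Fh c0 c1; split_ifs <;> fun_prop

theorem TC_cont (a : Ch) : Continuous (TC a) := by
  unfold TC c0 c1; split_ifs <;> simp only [T0, T1] <;> fun_prop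

/-- sections which do not vanish on the section cut out by a frame -/
theorem sec_e (φ : Frame) (h1 : 0 ≤ φ.da) (h2 : 0 ≤ (3, 3) + φ.db) (h3 : φ.db.1 + φ.db.2 = 0)
    (a : Ch) (e : ℂ × ℂ → V2) (he : Continuous e)
    (h4 : ∀ y, cv a (y, φ.e y) = mono (gen (op a) φ.da) (y, 0) • e (co a y)) (k : ℕ) :
    ∃ Φ, GSec (k + 1) Φ ∧ ∀ z, Φ a (z, e z) = 1 := by
  obtain ⟨S, hS, e1⟩ := φ.surj (k := k) (d := (3, 3))
    (cc_M k _ h2.1 h2.2 (by simp; omega)) (c := mono (gen (op a) ((3, 3) + (k + 1) • φ.da)))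
    fun b => gen_mem' _ _ (add_nonneg (by decide) (nsmul_nonneg h1 _))
  obtain ⟨Φ, hΦ, e2⟩ := extend hS
  refine ⟨Φ, hΦ, fun z => dens (f := fun z => Φ a (z, e z)) (g := fun _ => 1)
    ((hΦ.hol a).continuous.comp (continuous_id.prodMk he)).continuousAt continuousAt_const
    fun y y1 y2 => ?_⟩
  obtain ⟨⟨y, v⟩, rfl, -⟩ := exists_co a y1 y2 0
  have e3 := congrFun e1 (y, 0)
  rw [Frame.ev, e2 a, h4, hΦ.hom, gen_add, mono_add, gen_nsmul, mono_nsmul, Pi.mul_apply,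
    mono33, mul_right_inj' (pow_ne_zero _ (chi_ne (ch_co ff a y))), Pi.pow_apply] at e3
  exact (mul_right_inj' (pow_ne_zero _ (mono_ne _ _))).1 (e3.trans (mul_one _).symm)

theorem sec_A (a : Ch) (k : ℕ) :
    ∃ Φ, GSec (k + 1) Φ ∧ ∀ z v, v ≠ 0 → v 1 = 0 → Φ a (z, v) ≠ 0 := by
  obtain ⟨Φ, h, e⟩ := sec_e fB (by decide) (by decide) (by decide) a (fun _ => ![1, 0])
    continuous_const (fun y => by simp only [cv, fB, e2_gG, mono_gen]; simp) k
  refine ⟨Φ, h, fun z v h0 h1 => ?_⟩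
  have : v = v 0 • ![1, 0] := by ext i; fin_cases i <;> simp [h1]
  rw [this, h.hom, e, mul_one]
  exact pow_ne_zero _ fun k => h0 (by rw [this, k, zero_smul])

theorem sec_A' (a : Ch) (k : ℕ) :
    ∃ Φ, GSec (k + 1) Φ ∧ ∀ z v, v ≠ 0 → bq a z v = 0 → Φ a (z, v) ≠ 0 := by
  obtain ⟨Φ, h, e⟩ := sec_e fB' (by decide) (by decide) (by decide) a (fun z => ![TC a z, FC a z])
    (continuous_pi fun i => by fin_cases i; exacts [TC_cont a, FC_cont a])
    (fun y => by simp only [cv, fB', e1_gG (ch_co ff a y), mono_gen]; simp) k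
  refine ⟨Φ, h, fun z v h0 h1 => ?_⟩
  have hb := bez a z
  rw [bq] at h1
  have : v = (SC a z * v 0 + RC a z * v 1) • ![TC a z, FC a z] := by
    ext i; fin_cases i <;> simp
    · linear_combination -v 0 * hb + RC a z * h1
    · linear_combination -v 1 * hb - SC a z * h1
  rw [this, h.hom, e, mul_one]
  exact pow_ne_zero _ fun k => h0 (by rw [this, k, zero_smul])

theorem sec_B (a : Ch) : ∃ Φ, GSec 1 Φ ∧ ∀ z v, Φ a (z, v) = v 1 := by
  obtain ⟨Φ, h, e⟩ := extend (k := 1) (S := fB.b * mono (gen (op a) ((3, 3) + fB.db)))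
    fun b => fB.b_mul (k := 0) (gen_mem' _ _ (by decide))
  refine ⟨Φ, h, fun z v => dens (f := fun z => Φ a (z, v)) (g := fun _ => v 1)
    ((h.hol a).continuous.comp (continuous_id.prodMk continuous_const)).continuousAt
    continuousAt_const fun y y1 y2 => ?_⟩
  obtain ⟨w, rfl, rfl⟩ := exists_co a y1 y2 v
  have e1 := e a w
  have e2 := congrFun (B_eq (op a)) w
  rw [gen_add, mono_add, Pi.mul_apply, Pi.mul_apply, mono33] at e1
  refine (mul_right_inj' (pow_ne_zero 3 (chi_ne (ch_co ff a w.1)))).1 (e1.symm.trans ?_)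
  simp only [fB, Pi.mul_apply, BB, cho_op] at e2 ⊢
  rw [← e2]; ring

theorem sec_s (a : Ch) (j : ℕ) :
    ∃ Φ, GSec (j + j) Φ ∧ ∀ z v, Φ a (z, v) = (v 1 * bq a z v) ^ j := by
  have k : ∀ o, fB.b * fB'.b = BB (cho o) * fun w => bq (cho o) (co (cho o) w.1) (cv (cho o) w) := by
    intro o
    have := gen_neg o (3, -3)
    rw [← B_eq, ← B'_eq]
    simp only [fB, fB', Prod.neg_mk, neg_neg] at this ⊢
    linear_combination (-(fun w : Tor × V2 => w.2 1) * fun w => bq ff (co ff w.1) w.2) * this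
  obtain ⟨Φ, h, e⟩ := extend (k := j + j) (S := mono (gen (op a) (3, 3)) * (fB.b * fB'.b) ^ j)
    fun b => by
      induction j with
      | zero => simpa [M] using gen_mem' _ _ (by decide)
      | succ j ih =>
        have h1 := M_mul_L (M_mul_L ih (fB.b_mem _)) (fB'.b_mem _)
        have h2 := gen_neg (op b) (3, -3)
        simp only [Prod.neg_mk, neg_neg] at h2
        rw [show j + 1 + (j + 1) = j + j + 1 + 1 by ring]
        refine (congrArg (· ∈ _) ?_).mp h1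
        simp only [fB, fB']
        linear_combination (mono (gen (op a) (3, 3)) * ((fun w : Tor × V2 => w.2 1) *
          fun w : Tor × V2 => bq ff (co ff w.1) w.2) ^ (j + 1)) * h2
  refine ⟨Φ, h, fun z v => dens (f := fun z => Φ a (z, v)) (g := fun z => (v 1 * bq a z v) ^ j)
    ((h.hol a).continuous.comp (continuous_id.prodMk continuous_const)).continuousAt
    ((continuous_const.mul (((FC_cont a).mul continuous_const).sub
      ((TC_cont a).mul continuous_const))).pow j).continuousAt fun y y1 y2 => ?_⟩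
  obtain ⟨w, rfl, rfl⟩ := exists_co a y1 y2 v
  have e1 := e a w
  rw [Pi.mul_apply, mono33, k (op a)] at e1
  exact (mul_right_inj' (pow_ne_zero 3 (chi_ne (ch_co ff a w.1)))).1 e1.symm

end GG

open GG in
theorem gg : GGStmt := by
  rintro k (rfl | ⟨j, rfl⟩)
  · choose Φ h e using fun a => sec_A a 0
    choose Ψ h' e' using sec_B
    refine ⟨fun n => if n.1 = 0 then Φ n.2 else Ψ n.2, fun n => ?_, fun a z v hv => ?_⟩
    · dsimp only; split_ifs
      exacts [h _, h' _]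
    · by_cases k : v 1 = 0
      · exact ⟨(0, a), e a z v hv k⟩
      · exact ⟨(1, a), (e' a z v).trans_ne k⟩
  · choose Ψ h' e' using fun a => sec_s a j
    rcases j with _ | j
    · exact ⟨fun n => Ψ n.2, fun n => h' _, fun a z v _ => ⟨(0, a), by simp [e']⟩⟩
    choose Φ h e using fun a => sec_A a (j + 1 + j)
    choose Θ h'' e'' using fun a => sec_A' a (j + 1 + j)
    refine ⟨fun n => if n.1 = 0 then Φ n.2 else if n.1 = 1 then Θ n.2 else Ψ n.2, fun n => ?_,
      fun a z v hv => ?_⟩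
    · dsimp only; split_ifs
      exacts [h _, h'' _, h' _]
    · by_cases k : v 1 = 0
      · exact ⟨(0, a), e a z v hv k⟩
      by_cases k' : bq a z v = 0
      · exact ⟨(1, a), e'' a z v hv k'⟩
      · exact ⟨(2, a), (e' a z v).trans_ne (pow_ne_zero _ (mul_ne_zero k k'))⟩

end Vale.Agent.P296
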