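import Vale.Agent.P296.Poly

/-! The bundles and the interface between the modules. -/

namespace Vale.Agent.P296

open Matrix Complex
open scoped ComplexOrder ContDiff

abbrev Ch : Type := Bool × Bool
abbrev V2 : Type := Fin 2 → ℂ

theorem pt_eq_iff {b b' : Bool} {t t' : ℂ} :
    pt b t = pt b' t' ↔ (b' = b ∧ t' = t) ∨ (b' = !b ∧ t * t' = 1) := by
  unfold pt
  rw [Projectivization.mk_eq_mk_iff']
  cases b <;> cases b' <;> simp [funext_iff, Fin.forall_fin_two, eq_comm, mul_comm]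

theorem ch_eq_iff {a b : Ch} {z z' : ℂ × ℂ} :
    ch a z = ch b z' ↔ ((b.1 = a.1 ∧ z'.1 = z.1) ∨ (b.1 = !a.1 ∧ z.1 * z'.1 = 1)) ∧
      ((b.2 = a.2 ∧ z'.2 = z.2) ∨ (b.2 = !a.2 ∧ z.2 * z'.2 = 1)) := by
  rw [ch, ch, Prod.mk.injEq, pt_eq_iff, pt_eq_iff]

/-- homogeneous coordinates of the point with coordinate `t` in chart `b` -/
def c0 (b : Bool) (t : ℂ) : ℂ := if b then 1 else t
def c1 (b : Bool) (t : ℂ) : ℂ := if b then t else 1

noncomputable def FC (a : Ch) (z : ℂ × ℂ) : ℂ :=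
  Fh (c0 a.1 z.1) (c1 a.1 z.1) (c0 a.2 z.2) (c1 a.2 z.2)
noncomputable def TC (a : Ch) (z : ℂ × ℂ) : ℂ :=
  (if a.1 then T1 else T0) z.1 (c0 a.2 z.2) (c1 a.2 z.2)
noncomputable def SC (a : Ch) (z : ℂ × ℂ) : ℂ :=
  (if a.2 then S1 else S0) (c0 a.1 z.1) (c1 a.1 z.1) z.2
noncomputable def RC (a : Ch) (z : ℂ × ℂ) : ℂ :=
  (if a.1 then if a.2 then R11 else R10 else if a.2 then R01 else R00) z.1 z.2

theorem bez (a : Ch) (z : ℂ × ℂ) : TC a z * SC a z + FC a z * RC a z = 1 := by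
  rcases a with ⟨_ | _, _ | _⟩
  exacts [bez00 _ _, bez01 _ _, bez10 _ _, bez11 _ _]

/-- the extension class, in the chart `j` of the second factor -/
noncomputable def kap (j : Bool) (X W : ℂ) : ℂ := X⁻¹ ^ 2 * kh X (c0 j W) (c1 j W)

theorem kap_sw (j : Bool) (X : ℂ) {W W' : ℂ} (h : W * W' = 1) :
    kap j X W = W ^ 3 * kap (!j) X W' := by
  cases j
  · have := kh_hom W X 1 W'
    rw [h, mul_one] at this
    simp only [kap, c0, c1, Bool.not_false, if_true, Bool.false_eq_true, if_false, this]; ring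
  · have := kh_hom W X W' 1
    rw [h, mul_one] at this
    simp only [kap, c0, c1, Bool.not_true, if_true, Bool.false_eq_true, if_false, this]; ring

/-- transition scalar of `O(1)` -/
def sw (i i' : Bool) (t : ℂ) : ℂ := if i' = i then 1 else t

/-- transition scalar of `O(1,1)` -/
def chi (a b : Ch) (z : ℂ × ℂ) : ℂ := sw a.1 b.1 z.1 * sw a.2 b.2 z.2

noncomputable def gc (a b : Ch) (z : ℂ × ℂ) : ℂ :=
  if b.1 = a.1 then 0 else if a.1 then -z.1 ^ 3 * kap a.2 z.1⁻¹ z.2 else kap a.2 z.1 z.2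

/-- transition matrices of the nef bundle `G` -/
noncomputable def gG (a b : Ch) (z : ℂ × ℂ) : Matrix (Fin 2) (Fin 2) ℂ :=
  !![sw a.1 b.1 z.1 ^ 6, 0; gc a b z, (sw a.1 b.1 z.1)⁻¹ ^ 3 * sw a.2 b.2 z.2 ^ 3]

theorem sw_co {i i' i'' : Bool} {t t' t'' : ℂ} (h : pt i t = pt i' t') (h' : pt i t = pt i'' t'') :
    sw i i' t * sw i' i'' t' = sw i i'' t := by
  rcases pt_eq_iff.1 h with ⟨rfl, rfl⟩ | ⟨rfl, h⟩ <;>
    rcases pt_eq_iff.1 h' with ⟨rfl, rfl⟩ | ⟨rfl, h'⟩ <;> simp_all [sw]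

theorem sw_ne {i i' : Bool} {t t' : ℂ} (h : pt i t = pt i' t') : sw i i' t ≠ 0 := by
  rcases pt_eq_iff.1 h with ⟨rfl, rfl⟩ | ⟨rfl, k⟩
  · simp [sw]
  · simpa [sw] using left_ne_zero_of_mul_eq_one k

theorem chi_co {a b c : Ch} {z z' z'' : ℂ × ℂ} (h : ch a z = ch b z') (h' : ch a z = ch c z'') :
    chi a b z * chi b c z' = chi a c z := by
  rw [ch, ch, Prod.mk.injEq] at h h'
  rw [chi, chi, chi, ← sw_co h.1 h'.1, ← sw_co h.2 h'.2]; ring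

theorem chi_ne {a b : Ch} {z z' : ℂ × ℂ} (h : ch a z = ch b z') : chi a b z ≠ 0 := by
  rw [ch, ch, Prod.mk.injEq] at h
  exact mul_ne_zero (sw_ne h.1) (sw_ne h.2)

theorem kap_sw' {j j' : Bool} (X : ℂ) {W W' : ℂ} (h : pt j W = pt j' W') :
    kap j X W = sw j j' W ^ 3 * kap j' X W' := by
  rcases pt_eq_iff.1 h with ⟨rfl, rfl⟩ | ⟨rfl, k⟩
  · simp [sw]
  · simpa [sw] using kap_sw j X k

theorem gG_co {a b c : Ch} {z z' z'' : ℂ × ℂ} (h : ch a z = ch b z') (h' : ch a z = ch c z'') :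
    gG a b z * gG b c z' = gG a c z := by
  rw [ch, ch, Prod.mk.injEq] at h h'
  have e1 := sw_co h.1 h'.1
  have e2 := sw_co h.2 h'.2
  have e3 : gc a b z * sw b.1 c.1 z'.1 ^ 6 +
      (sw a.1 b.1 z.1)⁻¹ ^ 3 * sw a.2 b.2 z.2 ^ 3 * gc b c z' = gc a c z := by
    have k := fun X => kap_sw' X h.2
    generalize sw a.2 b.2 z.2 = w at k
    have h1 := pt_eq_iff.1 h.1
    clear e1 e2 h h'
    obtain ⟨i, j⟩ := a
    obtain ⟨i', j'⟩ := b
    obtain ⟨i'', j''⟩ := c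
    obtain ⟨u, W⟩ := z
    obtain ⟨u', W'⟩ := z'
    simp only at h1 k
    rcases h1 with ⟨h0, rfl⟩ | ⟨h0, h1⟩
    · cases i <;> cases i'' <;> simp [gc, sw, k, h0]
      ring
    · have hu := left_ne_zero_of_mul_eq_one h1
      obtain rfl := eq_inv_of_mul_eq_one_right h1
      cases i <;> cases i'' <;> simp [gc, sw, k, h0] <;> field_simp <;> ring
  rw [gG, gG, gG, ← e1, ← e2, ← e3]
  ext i j
  fin_cases i <;> fin_cases j <;> simp [Matrix.mul_apply, Fin.sum_univ_two] <;> ring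

theorem gG_refl (a : Ch) (z : ℂ × ℂ) : gG a a z = 1 := by
  ext i j
  fin_cases i <;> fin_cases j <;> simp [gG, sw, gc]

/-- the covector `e₂` -/
theorem e2_gG (a b : Ch) (z : ℂ × ℂ) :
    (![1, 0] : V2) ᵥ* gG a b z = sw a.1 b.1 z.1 ^ 6 • ![1, 0] := by
  ext i
  fin_cases i <;> simp [gG, vecMul, dotProduct, Fin.sum_univ_two]

theorem c_sw {j j' : Bool} {W W' : ℂ} (h : pt j W = pt j' W') :
    c0 j W = sw j j' W * c0 j' W' ∧ c1 j W = sw j j' W * c1 j' W' := by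
  rcases pt_eq_iff.1 h with ⟨rfl, rfl⟩ | ⟨rfl, k⟩
  · simp [sw]
  · cases j <;> simp [sw, c0, c1, k]

theorem FC_sw {a b : Ch} {z z' : ℂ × ℂ} (h : ch a z = ch b z') :
    FC a z = chi a b z ^ 3 * FC b z' := by
  rw [ch, ch, Prod.mk.injEq] at h
  rw [FC, (c_sw h.1).1, (c_sw h.1).2, (c_sw h.2).1, (c_sw h.2).2, Fh_hom, chi, FC, mul_pow]

theorem TC_sw {a b : Ch} {z z' : ℂ × ℂ} (h : ch a z = ch b z') :
    TC a z * sw a.1 b.1 z.1 ^ 6 + FC a z * gc a b z = sw a.2 b.2 z.2 ^ 6 * TC b z' := by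
  rw [ch, ch, Prod.mk.injEq] at h
  have e : ∀ (i : Bool) (x : ℂ), (if i then T1 else T0) x (c0 a.2 z.2) (c1 a.2 z.2) =
      sw a.2 b.2 z.2 ^ 6 * (if i then T1 else T0) x (c0 b.2 z'.2) (c1 b.2 z'.2) := by
    intro i x
    rw [(c_sw h.2).1, (c_sw h.2).2]
    cases i
    · exact T0_hom _ _ _ _
    · exact T1_hom _ _ _ _
  rw [TC, TC, ← e, FC, gc, kap, kap]
  generalize c0 a.2 z.2 = y0
  generalize c1 a.2 z.2 = y1
  rcases pt_eq_iff.1 h.1 with ⟨k1, k2⟩ | ⟨k1, k2⟩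
  · simp [sw, k1, k2]
  · have hu := left_ne_zero_of_mul_eq_one k2
    rw [k1, eq_inv_of_mul_eq_one_right k2]
    cases a.1
    · simp only [sw, c0, c1]
      simp
      rw [T1_eq hu y0 y1, inv_pow]
      ring
    · have h1 := T1_eq (inv_ne_zero hu) y0 y1
      have h2 := Fh_hom z.1 1 z.1⁻¹ 1 y0 y1
      rw [mul_inv_cancel₀ hu] at h2
      simp only [mul_one, one_mul, one_pow, inv_inv] at h1 h2
      simp only [sw, c0, c1]
      simp
      rw [h1, h2]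
      field_simp
      ring

/-- the covector `e₁` -/
theorem e1_gG {a b : Ch} {z z' : ℂ × ℂ} (h : ch a z = ch b z') :
    (![TC a z, FC a z] : V2) ᵥ* gG a b z = sw a.2 b.2 z.2 ^ 6 • ![TC b z', FC b z'] := by
  have h1 := TC_sw h
  have h2 := FC_sw h
  rw [ch, ch, Prod.mk.injEq] at h
  have h3 := sw_ne h.1
  ext i
  fin_cases i
  · simpa [gG, vecMul, dotProduct, Fin.sum_univ_two] using h1
  · simp [gG, vecMul, dotProduct, Fin.sum_univ_two, h2, chi]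
    field_simp

/-- the power map -/
def pw (m : ℕ) (z : ℂ × ℂ) : ℂ × ℂ := (z.1 ^ m, z.2 ^ m)

theorem pt_pw (m : ℕ) {i i' : Bool} {t t' : ℂ} (h : pt i t = pt i' t') :
    pt i (t ^ m) = pt i' (t' ^ m) := by
  rw [pt_eq_iff] at h ⊢
  rcases h with ⟨k1, k2⟩ | ⟨k1, k2⟩
  · exact .inl ⟨k1, by rw [k2]⟩
  · exact .inr ⟨k1, by rw [← mul_pow, k2, one_pow]⟩

theorem ch_pw (m : ℕ) {a b : Ch} {z z' : ℂ × ℂ} (h : ch a z = ch b z') :
    ch a (pw m z) = ch b (pw m z') := by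
  rw [ch, ch, Prod.mk.injEq] at h ⊢
  exact ⟨pt_pw m h.1, pt_pw m h.2⟩

theorem sw_pw (m : ℕ) (i i' : Bool) (t : ℂ) : sw i i' (t ^ m) = sw i i' t ^ m := by
  unfold sw; split_ifs <;> simp

theorem chi_pw (m : ℕ) (a b : Ch) (z : ℂ × ℂ) : chi a b (pw m z) = chi a b z ^ m := by
  simp [chi, pw, sw_pw, mul_pow]

theorem kh_diff {E : Type*} [NormedAddCommGroup E] [NormedSpace ℂ E] {f g k : E → ℂ} {x : E}
    (hf : DifferentiableAt ℂ f x) (hg : DifferentiableAt ℂ g x) (hk : DifferentiableAt ℂ k x) :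
    DifferentiableAt ℂ (fun y => kh (f y) (g y) (k y)) x := by
  unfold kh; fun_prop

theorem gG_diff {a b : Ch} {z z' : ℂ × ℂ} (h : ch a z = ch b z') (i j : Fin 2) :
    DifferentiableAt ℂ (fun w => gG a b w i j) z := by
  rw [ch, ch, Prod.mk.injEq] at h
  have h1 := sw_ne h.1
  have d1 : DifferentiableAt ℂ (fun w : ℂ × ℂ => sw a.1 b.1 w.1) z := by
    unfold sw; split_ifs <;> fun_prop
  have d2 : DifferentiableAt ℂ (fun w : ℂ × ℂ => sw a.2 b.2 w.2) z := by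
    unfold sw; split_ifs <;> fun_prop
  have d3 : DifferentiableAt ℂ (fun w : ℂ × ℂ => c0 a.2 w.2) z := by
    unfold c0; split_ifs <;> fun_prop
  have d4 : DifferentiableAt ℂ (fun w : ℂ × ℂ => c1 a.2 w.2) z := by
    unfold c1; split_ifs <;> fun_prop
  have d8 : DifferentiableAt ℂ (fun w => gc a b w) z := by
    unfold gc kap
    by_cases k : b.1 = a.1
    · simp [k]
    · have h2 : z.1 ≠ 0 := by simpa [sw, k] using h1
      have d5 : DifferentiableAt ℂ (fun w : ℂ × ℂ => w.1⁻¹) z := differentiableAt_fst.inv h2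
      have d6 := kh_diff d5 d3 d4
      have d7 := kh_diff differentiableAt_fst d3 d4
      simp only [k, if_false, inv_inv]
      split_ifs
      · exact (differentiableAt_fst.pow 3).neg.mul ((differentiableAt_fst.pow 2).mul d6)
      · exact (d5.pow 2).mul d7
  fin_cases i <;> fin_cases j
  · exact d1.pow 6
  · exact differentiableAt_const (0 : ℂ)
  · exact d8
  · exact ((d1.inv h1).pow 3).mul (d2.pow 3)

/-- the bundles `E_m`: pull back `G` by the power map and twist by `O(1,1)` -/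
noncomputable def EE (m : ℕ) : Bundle 2 where
  g a b z := chi a b z • gG a b (pw m z)
  hol a b i j z hz := by
    obtain ⟨z', h⟩ := hz
    have d1 : DifferentiableAt ℂ (fun w => chi a b w) z := by
      unfold chi sw; split_ifs <;> fun_prop
    have d2 : DifferentiableAt ℂ (pw m) z := by unfold pw; fun_prop
    exact (d1.mul ((gG_diff (ch_pw m h.symm) i j).comp z d2)).differentiableWithinAt
  refl a z := by simp [chi, sw, gG_refl]
  cocycle a b c z z' z'' h h' := by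
    rw [smul_mul_smul_comm, chi_co h h', gG_co (ch_pw m h) (ch_pw m h')]

/-- positive continuous functions `u` with `log u` strictly subharmonic in a weak sense -/
structure LS (u : ℂ → ℝ) : Prop where
  cont : Continuous u
  pos : ∀ t, 0 < u t
  nomax : ∀ (t₀ : ℂ) (g : ℂ → ℂ), AnalyticAt ℂ g t₀ → g t₀ ≠ 0 →
    ¬IsLocalMax (fun t => ‖g t‖ * u t) t₀

/-- the dual norm of a covector -/
noncomputable def nv (H : Matrix (Fin 2) (Fin 2) ℂ) (v : V2) : ℝ :=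
  √(v ⬝ᵥ H⁻¹ *ᵥ star v).re

/-- Module M: the dual norm of a Griffiths positive metric on a chart. -/
def MetStmt : Prop :=
  (∀ H : Matrix (Fin 2) (Fin 2) ℂ, H.PosDef →
    (∀ v w, nv H (v + w) ≤ nv H v + nv H w) ∧ (∀ (c : ℂ) v, nv H (c • v) = ‖c‖ * nv H v) ∧
    ∀ (g g' : Matrix (Fin 2) (Fin 2) ℂ) v, g * g' = 1 → nv (gᴴ * H * g) (v ᵥ* g) = nv H v) ∧
  ∀ H : ℂ × ℂ → Matrix (Fin 2) (Fin 2) ℂ, (∀ i j, ContDiff ℝ ∞ fun z => H z i j) →
    (∀ z, (H z).PosDef) →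
    (∀ z ξ u, ξ ≠ 0 → u ≠ 0 → 0 < (star u ⬝ᵥ (H z * curv H ξ z) *ᵥ u).re) →
    Continuous (fun w : (ℂ × ℂ) × V2 => nv (H w.1) w.2) ∧
    ∀ (z ξ : ℂ × ℂ) (v : ℂ → V2), ξ ≠ 0 → Differentiable ℂ v → (∀ t, v t ≠ 0) →
      LS fun t => nv (H (z + t • ξ)) (v t)

/-- the norms of the covectors `e₁`, `e₂`, `η` on the main chart of `E_m` -/
structure Nrm (m : ℕ) (α β η : ℂ → ℂ → ℝ) : Prop where
  cα : Continuous fun z : ℂ × ℂ => α z.1 z.2
  cβ : Continuous fun z : ℂ × ℂ => β z.1 z.2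
  α1 : ∀ t, LS fun s => α s t
  α2 : ∀ s, LS (α s)
  β1 : ∀ t, LS fun s => β s t
  β2 : ∀ s, LS (β s)
  η1 : ∀ t, LS fun s => η s t
  gα : ∃ C, ∀ s t, α s t ≤ C * max 1 ‖s‖ * max 1 ‖t‖ ^ (6 * m + 1)
  gβ : ∃ C, ∀ s t, β s t ≤ C * max 1 ‖s‖ ^ (6 * m + 1) * max 1 ‖t‖
  t1 : ∀ s t, α s t ≤ ‖T0 (s ^ m) (t ^ m) 1‖ * β s t + ‖Fh (s ^ m) 1 (t ^ m) 1‖ * η s t
  t2 : ∀ s t, ‖T0 (s ^ m) (t ^ m) 1‖ * β s t ≤ α s t + ‖Fh (s ^ m) 1 (t ^ m) 1‖ * η s t
  t3 : ∀ s t, ‖Fh (s ^ m) 1 (t ^ m) 1‖ * η s t ≤ α s t + ‖T0 (s ^ m) (t ^ m) 1‖ * β s t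

/-- Module C: the analytic core. -/
def CoreStmt : Prop := ∀ α β η : ℕ → ℂ → ℂ → ℝ, ¬∀ m, 1 ≤ m → Nrm m (α m) (β m) (η m)

/-- sections of `Sym^k G (3,3)` -/
structure GSec (k : ℕ) (Φ : Ch → (ℂ × ℂ) × V2 → ℂ) : Prop where
  hol : ∀ a, Differentiable ℂ (Φ a)
  hom : ∀ a z v (c : ℂ), Φ a (z, c • v) = c ^ k * Φ a (z, v)
  glue : ∀ a b z z' v, ch a z = ch b z' → Φ a (z, v) = chi a b z ^ 3 * Φ b (z', v ᵥ* gG a b z)

/-- Module H: `Sym^k G (3,3)` has enough sections. -/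
def GGStmt : Prop :=
  ∀ k : ℕ, k = 1 ∨ Even k → ∃ Φ : Fin 3 × Ch → Ch → (ℂ × ℂ) × V2 → ℂ,
    (∀ n, GSec k (Φ n)) ∧ ∀ a z v, v ≠ 0 → ∃ n, Φ n a (z, v) ≠ 0

/-- Module V: ampleness. -/
def AmpStmt : Prop := ∀ m, Ample (EE m)

end Vale.Agent.P296
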